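import Mathlib

/-!
# P119: the setting for the potential `Φ = 0` (definitions used by the statement)

Particles in Euclidean three-space that do not interact: Newton's equations are the free flow.
The initial law is the grand canonical law of the problem file: `N` particles with weight
`μ^N / N! 1{|x_i - x_j| > ε for all i ≠ j} ∏ f0 (z_i)`, `μ = ε^(-2)`, normalised.
Everything is an extended nonnegative real, so no integrability question arises.
-/

open MeasureTheory
open scoped ENNReal

namespace Vale.Agent.H32.P119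

/-- Euclidean three-space (Euclidean distance, Lebesgue measure). -/
abbrev E3 : Type := EuclideanSpace ℝ (Fin 3)

/-- One-particle phase space: position and velocity. -/
abbrev Ph : Type := E3 × E3

/-- The free flow `S_t (x, v) = (x + t v, v)`. -/
def flow (t : ℝ) (z : Ph) : Ph := (z.1 + t • z.2, z.2)

/-- Exclusion: the positions of the `N` particles are at mutual distance `> ε`. -/
def Excl (ε : ℝ) {N : ℕ} (z : Fin N → Ph) : Prop :=
  ∀ i j : Fin N, i ≠ j → ε < dist (z i).1 (z j).1

/-- The unnormalised grand canonical sum of a family of observables `φ N` of `N`-particle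
configurations: `∑_N (μ^N / N!) ∫ 1{Excl} ∏_i f0 (z_i) φ_N (z) dz` with `μ = ε^(-2)`. -/
noncomputable def gc (f0 : Ph → ℝ≥0∞) (ε : ℝ) (φ : (N : ℕ) → (Fin N → Ph) → ℝ≥0∞) : ℝ≥0∞ :=
  ∑' N : ℕ, ENNReal.ofReal ((ε ^ 2)⁻¹ ^ N / (N.factorial : ℝ)) *
    ∫⁻ z : Fin N → Ph, Set.indicator {z | Excl ε z} (fun z => (∏ i, f0 (z i)) * φ N z) z

/-- The rescaled `s`-particle factorial marginal at time `t` of the free dynamics, tested against
`a`: `μ^(-s) E ∑ a (S_t z_{i_1}, …, S_t z_{i_s})`, the sum over ordered tuples of distinct labels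
(injections `Fin s ↪ Fin N`), `E` the expectation of the grand canonical law. -/
noncomputable def marginal (f0 : Ph → ℝ≥0∞) (ε : ℝ) (s : ℕ) (t : ℝ)
    (a : (Fin s → Ph) → ℝ≥0∞) : ℝ≥0∞ :=
  ENNReal.ofReal ((ε ^ 2) ^ s) * (gc f0 ε fun _ _ => 1)⁻¹ *
    gc f0 ε fun N z => ∑ ι : Fin s ↪ Fin N, a fun k => flow t (z (ι k))

end Vale.Agent.H32.P119
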