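import Mathlib
import Vale.Agent.H32.P119.Setting

/-!
# P119, `Φ = 0`: internal definitions

`mu ε = ε^(-2)`, `cw ε N = μ^N / N!`, the indicators `exclI`, `farI`, `nearI`,
`Wn f0 ε N φ = ∫ 1{Excl} ∏ f0 φ`, `An = Wn 1`, `Lf f0 a = ∫ a ∏ f0`,
`Zk f0 ε k = ∑_n c_n A_(n+k)` and `Zp = Zk 0`-like partition sum, `kap` the ball constant.
-/

open MeasureTheory
open scoped ENNReal

namespace Vale.Agent.H32.P119

/-- the activity `μ = ε^(-2)` -/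
noncomputable def mu (ε : ℝ) : ℝ≥0∞ := ENNReal.ofReal ((ε ^ 2)⁻¹)

/-- the coefficient `μ^N / N!` -/
noncomputable def cw (ε : ℝ) (N : ℕ) : ℝ≥0∞ :=
  ENNReal.ofReal ((ε ^ 2)⁻¹ ^ N / (N.factorial : ℝ))

/-- indicator of the exclusion condition -/
noncomputable def exclI (ε : ℝ) {N : ℕ} (z : Fin N → Ph) : ℝ≥0∞ :=
  Set.indicator {z : Fin N → Ph | Excl ε z} (fun _ => (1 : ℝ≥0∞)) z

/-- indicator of: the position of `y` is at distance `> ε` from every particle of `z` -/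
noncomputable def farI (ε : ℝ) {n : ℕ} (y : Ph) (z : Fin n → Ph) : ℝ≥0∞ :=
  Set.indicator {p : Ph × (Fin n → Ph) | ∀ j, ε < dist p.1.1 (p.2 j).1}
    (fun _ => (1 : ℝ≥0∞)) (y, z)

/-- indicator of: the position of `y` is within distance `ε` of the point `c` -/
noncomputable def nearI (ε : ℝ) (y : Ph) (c : E3) : ℝ≥0∞ :=
  Set.indicator {y : Ph | dist y.1 c ≤ ε} (fun _ => (1 : ℝ≥0∞)) y

/-- `W_N(φ) = ∫ 1{Excl} ∏ f0 φ` -/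
noncomputable def Wn (f0 : Ph → ℝ≥0∞) (ε : ℝ) (N : ℕ) (φ : (Fin N → Ph) → ℝ≥0∞) : ℝ≥0∞ :=
  ∫⁻ z : Fin N → Ph, exclI ε z * ((∏ i, f0 (z i)) * φ z)

/-- `A_N = W_N(1)` -/
noncomputable def An (f0 : Ph → ℝ≥0∞) (ε : ℝ) (N : ℕ) : ℝ≥0∞ := Wn f0 ε N fun _ => 1

/-- `L(a) = ∫ a ∏ f0` -/
noncomputable def Lf (f0 : Ph → ℝ≥0∞) {s : ℕ} (a : (Fin s → Ph) → ℝ≥0∞) : ℝ≥0∞ :=
  ∫⁻ w : Fin s → Ph, a w * ∏ k, f0 (w k)

/-- the shifted partition sums `Z^(k) = ∑_n c_n A_(n+k)` -/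
noncomputable def Zk (f0 : Ph → ℝ≥0∞) (ε : ℝ) (k : ℕ) : ℝ≥0∞ :=
  ∑' n : ℕ, cw ε n * An f0 ε (n + k)

/-- the partition function `Z = ∑_n c_n A_n` -/
noncomputable def Zp (f0 : Ph → ℝ≥0∞) (ε : ℝ) : ℝ≥0∞ := ∑' n : ℕ, cw ε n * An f0 ε n

/-- the ball constant `κ = C |B_ε| = C ε^3 |B_1|` -/
noncomputable def kap (C : ℝ≥0∞) (ε : ℝ) : ℝ≥0∞ :=
  C * (ENNReal.ofReal (ε ^ 3) * volume (Metric.closedBall (0 : E3) 1))

end Vale.Agent.H32.P119
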