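import Mathlib
import Vale.Agent.H32.P119.Defs

/-!
# P119 row K4 (Ball): the mass of `f0` over a ball of positions

TASK K4: replace the sorry, keep the statement exactly; helper lemmas with names starting `ball_`.
`Ph = E3 × E3` with the product volume (`Measure.volume_eq_prod`); `nearI ε y c` is the indicator of
`y.1 ∈ Metric.closedBall c ε`.  Tonelli (`lintegral_prod`, the integrand is measurable):
`∫ f0 y nearI ε y c dy = ∫_x 1{x ∈ closedBall c ε} (∫_v f0 (x, v)) ≤ C * volume (closedBall c ε)`
and `volume (closedBall c ε) = ofReal (ε ^ 3) * volume (closedBall 0 1)`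
(`Measure.addHaar_closedBall_mul` with `r = ε`, `s = 1`, or `Measure.addHaar_closedBall`;
`finrank ℝ E3 = 3`: `finrank_euclideanSpace`, `Fintype.card_fin`).  `kap` is in Defs.lean.
-/

open MeasureTheory
open scoped ENNReal

namespace Vale.Agent.H32.P119

/-- ROW K4. -/
theorem lintegral_near_le (f0 : Ph → ℝ≥0∞) (hf : Measurable f0) (C : ℝ≥0∞)
    (hρ : ∀ x : E3, ∫⁻ v : E3, f0 (x, v) ≤ C) (ε : ℝ) (hε : 0 < ε) (c : E3) :
    ∫⁻ y : Ph, f0 y * nearI ε y c ≤ kap C ε := by
  have hnear : ∀ y : Ph, nearI ε y c
      = Set.indicator (Metric.closedBall c ε) (fun _ => (1 : ℝ≥0∞)) y.1 := by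
    intro y
    unfold nearI
    by_cases h : dist y.1 c ≤ ε
    · rw [Set.indicator_of_mem (show y ∈ {y : Ph | dist y.1 c ≤ ε} from h),
        Set.indicator_of_mem (Metric.mem_closedBall.mpr h)]
    · rw [Set.indicator_of_notMem (show y ∉ {y : Ph | dist y.1 c ≤ ε} from h),
        Set.indicator_of_notMem (fun h' => h (Metric.mem_closedBall.mp h'))]
  have hind : Measurable (fun x : E3 =>
      Set.indicator (Metric.closedBall c ε) (fun _ => (1 : ℝ≥0∞)) x) :=
    measurable_const.indicator measurableSet_closedBall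
  have hball : volume (Metric.closedBall c ε)
      = ENNReal.ofReal (ε ^ 3) * volume (Metric.closedBall (0 : E3) 1) := by
    have h := Measure.addHaar_closedBall_mul (volume : Measure E3) c hε.le (zero_le_one' ℝ)
    rw [mul_one, finrank_euclideanSpace_fin] at h
    exact h
  calc ∫⁻ y : Ph, f0 y * nearI ε y c
      = ∫⁻ y : Ph, f0 y * Set.indicator (Metric.closedBall c ε) (fun _ => (1 : ℝ≥0∞)) y.1 := by
        refine lintegral_congr (fun y => ?_)
        rw [hnear y]
    _ = ∫⁻ x : E3, ∫⁻ v : E3,
          f0 (x, v) * Set.indicator (Metric.closedBall c ε) (fun _ => (1 : ℝ≥0∞)) x := by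
        rw [Measure.volume_eq_prod, lintegral_prod]
        exact (hf.mul (hind.comp measurable_fst)).aemeasurable
    _ = ∫⁻ x : E3, (∫⁻ v : E3, f0 (x, v))
          * Set.indicator (Metric.closedBall c ε) (fun _ => (1 : ℝ≥0∞)) x := by
        refine lintegral_congr (fun x => ?_)
        exact lintegral_mul_const _ (hf.comp measurable_prodMk_left)
    _ ≤ ∫⁻ x : E3, C * Set.indicator (Metric.closedBall c ε) (fun _ => (1 : ℝ≥0∞)) x := by
        refine lintegral_mono (fun x => ?_)
        exact mul_le_mul' (hρ x) le_rfl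
    _ = C * volume (Metric.closedBall c ε) := by
        rw [lintegral_const_mul _ hind, lintegral_indicator_const measurableSet_closedBall,
          one_mul]
    _ = kap C ε := by
        unfold kap
        rw [hball]

end Vale.Agent.H32.P119
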