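import Mathlib
import Vale.Agent.H32.P119.Defs

/-!
# P119 row K3 (Meas): measurability of the indicators and of the product weight

TASK K3: replace every sorry, keep the statements exactly; helper lemmas with names starting `meas_`.
The sets are open or closed: `{z | Excl ε z}` is a finite intersection of sets
`{z | i ≠ j → ε < dist (z i).1 (z j).1}` (open, or everything); `measurableSet_lt`,
`Measurable.indicator`, `MeasurableSet.iInter`, `measurable_const`; distances of measurable maps
into `E3` are measurable (`Measurable.dist`, `measurable_pi_apply`, `measurable_fst`).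
The product: `Finset.measurable_prod` with `hf.comp (measurable_pi_apply i)`.
-/

open MeasureTheory
open scoped ENNReal

namespace Vale.Agent.H32.P119

/-- ROW K3a. -/
theorem measurable_exclI (ε : ℝ) (N : ℕ) : Measurable fun z : Fin N → Ph => exclI ε z := by
  have hS : MeasurableSet {z : Fin N → Ph | Excl ε z} := by
    have hset : {z : Fin N → Ph | Excl ε z}
        = ⋂ i : Fin N, ⋂ j : Fin N, {z : Fin N → Ph | i ≠ j → ε < dist (z i).1 (z j).1} := by
      ext z
      simp only [Set.mem_ofPred_eq, Set.mem_iInter]
      rfl
    rw [hset]
    refine MeasurableSet.iInter fun i => MeasurableSet.iInter fun j => ?_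
    by_cases hij : i = j
    · have huniv : {z : Fin N → Ph | i ≠ j → ε < dist (z i).1 (z j).1} = Set.univ := by
        ext z
        simp [hij]
      rw [huniv]
      exact MeasurableSet.univ
    · have hlt : {z : Fin N → Ph | i ≠ j → ε < dist (z i).1 (z j).1}
          = {z : Fin N → Ph | ε < dist (z i).1 (z j).1} := by
        ext z
        simp [hij]
      rw [hlt]
      exact measurableSet_lt measurable_const
        ((measurable_fst.comp (measurable_pi_apply i)).dist
          (measurable_fst.comp (measurable_pi_apply j)))
  exact (measurable_const (a := (1 : ℝ≥0∞))).indicator hS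

/-- ROW K3b. -/
theorem measurable_farI (ε : ℝ) (n : ℕ) :
    Measurable fun p : Ph × (Fin n → Ph) => farI ε p.1 p.2 := by
  have hS : MeasurableSet {p : Ph × (Fin n → Ph) | ∀ j, ε < dist p.1.1 (p.2 j).1} := by
    have hset : {p : Ph × (Fin n → Ph) | ∀ j, ε < dist p.1.1 (p.2 j).1}
        = ⋂ j : Fin n, {p : Ph × (Fin n → Ph) | ε < dist p.1.1 (p.2 j).1} := by
      ext p
      simp only [Set.mem_ofPred_eq, Set.mem_iInter]
    rw [hset]
    refine MeasurableSet.iInter fun j => ?_
    exact measurableSet_lt measurable_const
      ((measurable_fst.comp measurable_fst).dist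
        (measurable_fst.comp ((measurable_pi_apply j).comp measurable_snd)))
  exact (measurable_const (a := (1 : ℝ≥0∞))).indicator hS

/-- ROW K3c. -/
theorem measurable_nearI (ε : ℝ) (c : E3) : Measurable fun y : Ph => nearI ε y c := by
  have hS : MeasurableSet {y : Ph | dist y.1 c ≤ ε} :=
    measurableSet_le (measurable_fst.dist measurable_const) measurable_const
  exact (measurable_const (a := (1 : ℝ≥0∞))).indicator hS

/-- ROW K3d. -/
theorem measurable_prod_f0 (f0 : Ph → ℝ≥0∞) (hf : Measurable f0) (N : ℕ) :
    Measurable fun z : Fin N → Ph => ∏ i, f0 (z i) :=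
  Finset.measurable_prod _ fun i _ => hf.comp (measurable_pi_apply i)

end Vale.Agent.H32.P119
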