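import Mathlib
import Vale.Agent.H32.P119.Defs

/-!
# P119 row K2 (Point): pointwise identities for the indicators and the product weight

TASK K2 (proved, statements unchanged); helper lemmas have names starting `point_`.
`Fin.removeNth i z = fun j => z (i.succAbove j)`.
`exclI_removeNth`: `Excl ε z ↔ Excl ε (i.removeNth z) ∧ ∀ j, ε < dist (z i).1 (z (i.succAbove j)).1`
(every index `≠ i` is `i.succAbove j` for some `j`: `Fin.exists_succAbove_eq`; `succAbove` is
injective and never `i`; `dist_comm`); then both sides are `0` or `1` (`Set.indicator`, by cases).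
`prod_removeNth`: `Fin.prod_univ_succAbove`.
`one_le_farI_add`: if `farI = 0` some `j` has `dist y.1 (z j).1 ≤ ε`, so one summand is `1`
(`Finset.single_le_sum`).
-/

open MeasureTheory
open scoped ENNReal

namespace Vale.Agent.H32.P119

/-- exclusion of `z` is exclusion of `z` without `i` together with `z i` far from the rest -/
theorem point_excl_iff {n : ℕ} (ε : ℝ) (i : Fin (n + 1)) (z : Fin (n + 1) → Ph) :
    Excl ε z ↔ Excl ε (i.removeNth z) ∧ ∀ j, ε < dist (z i).1 (i.removeNth z j).1 := by
  constructor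
  · intro h
    refine ⟨fun j k hjk => ?_, fun j => ?_⟩
    · exact h (i.succAbove j) (i.succAbove k) (fun e => hjk (Fin.succAbove_right_injective e))
    · exact h i (i.succAbove j) (fun e => Fin.succAbove_ne i j e.symm)
  · rintro ⟨h1, h2⟩ a b hab
    by_cases ha : a = i
    · subst ha
      obtain ⟨j, rfl⟩ := Fin.exists_succAbove_eq (Ne.symm hab)
      exact h2 j
    · obtain ⟨j, rfl⟩ := Fin.exists_succAbove_eq ha
      by_cases hb : b = i
      · subst hb
        rw [dist_comm]
        exact h2 j
      · obtain ⟨k, rfl⟩ := Fin.exists_succAbove_eq hb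
        exact h1 j k (fun e => hab (by rw [e]))

/-- ROW K2a. -/
theorem exclI_removeNth {n : ℕ} (ε : ℝ) (i : Fin (n + 1)) (z : Fin (n + 1) → Ph) :
    exclI ε z = exclI ε (i.removeNth z) * farI ε (z i) (i.removeNth z) := by
  classical
  have key := point_excl_iff ε i z
  have e0 : exclI ε z = if Excl ε z then 1 else 0 := by
    unfold exclI
    by_cases h : Excl ε z
    · rw [if_pos h]; exact Set.indicator_of_mem (by exact h) _
    · rw [if_neg h]; exact Set.indicator_of_notMem (by exact h) _
  have e1 : exclI ε (i.removeNth z) = if Excl ε (i.removeNth z) then 1 else 0 := by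
    unfold exclI
    by_cases h : Excl ε (i.removeNth z)
    · rw [if_pos h]; exact Set.indicator_of_mem (by exact h) _
    · rw [if_neg h]; exact Set.indicator_of_notMem (by exact h) _
  have e2 : farI ε (z i) (i.removeNth z)
      = if (∀ j, ε < dist (z i).1 (i.removeNth z j).1) then 1 else 0 := by
    unfold farI
    by_cases h : ∀ j, ε < dist (z i).1 (i.removeNth z j).1
    · rw [if_pos h]; exact Set.indicator_of_mem (by exact h) _
    · rw [if_neg h]; exact Set.indicator_of_notMem (by exact h) _
  rw [e0, e1, e2]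
  by_cases h1 : Excl ε (i.removeNth z)
  · by_cases h2 : ∀ j, ε < dist (z i).1 (i.removeNth z j).1
    · have h : Excl ε z := key.mpr ⟨h1, h2⟩
      rw [if_pos h, if_pos h1, if_pos h2, one_mul]
    · have h : ¬ Excl ε z := fun h => h2 (key.mp h).2
      rw [if_neg h, if_neg h2, mul_zero]
  · have h : ¬ Excl ε z := fun h => h1 (key.mp h).1
    rw [if_neg h, if_neg h1, zero_mul]

/-- ROW K2b. -/
theorem prod_removeNth {n : ℕ} (f0 : Ph → ℝ≥0∞) (i : Fin (n + 1)) (z : Fin (n + 1) → Ph) :
    ∏ j, f0 (z j) = f0 (z i) * ∏ j, f0 (i.removeNth z j) := by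
  exact Fin.prod_univ_succAbove (fun j => f0 (z j)) i

/-- ROW K2c. -/
theorem one_le_farI_add {n : ℕ} (ε : ℝ) (y : Ph) (z : Fin n → Ph) :
    1 ≤ farI ε y z + ∑ j, nearI ε y (z j).1 := by
  by_cases h : ∀ j, ε < dist y.1 (z j).1
  · have e : farI ε y z = 1 := by
      unfold farI
      rw [Set.indicator_of_mem (by exact h)]
    rw [e]
    exact le_self_add
  · push Not at h
    obtain ⟨j, hj⟩ := h
    have e : nearI ε y (z j).1 = 1 := by
      unfold nearI
      rw [Set.indicator_of_mem (by exact hj)]
    have hle : nearI ε y (z j).1 ≤ ∑ k, nearI ε y (z k).1 :=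
      Finset.single_le_sum (f := fun k => nearI ε y (z k).1) (fun k _ => bot_le)
        (Finset.mem_univ j)
    rw [e] at hle
    exact le_trans hle le_add_self

/-- ROW K2d. -/
theorem exclI_le_one {N : ℕ} (ε : ℝ) (z : Fin N → Ph) : exclI ε z ≤ 1 := by
  unfold exclI
  by_cases h : z ∈ {z : Fin N → Ph | Excl ε z}
  · rw [Set.indicator_of_mem h]
  · rw [Set.indicator_of_notMem h]
    exact bot_le

/-- ROW K2e. -/
theorem farI_le_one {n : ℕ} (ε : ℝ) (y : Ph) (z : Fin n → Ph) : farI ε y z ≤ 1 := by
  unfold farI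
  by_cases h : (y, z) ∈ {p : Ph × (Fin n → Ph) | ∀ j, ε < dist p.1.1 (p.2 j).1}
  · rw [Set.indicator_of_mem h]
  · rw [Set.indicator_of_notMem h]
    exact bot_le

/-- ROW K2f: no pair, no condition. -/
theorem exclI_fin_zero (ε : ℝ) (z : Fin 0 → Ph) : exclI ε z = 1 := by
  unfold exclI
  have h : Excl ε z := fun i => i.elim0
  rw [Set.indicator_of_mem (by exact h)]

end Vale.Agent.H32.P119
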