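import Mathlib
import Vale.Agent.H32.P119.Defs

/-!
# P119 row K1 (Split): integrate out one coordinate

ROW K1 (proved; statement kept exactly; helper lemma `split_sf`).
`MeasurableEquiv.piFinSuccAbove (fun _ => Ph) i` sends `z` to the pair `z i`, `i.removeNth z` and is measure
preserving (`volume_preserving_piFinSuccAbove`); so
`∫ F (z i) (i.removeNth z) dz = ∫ (uncurry F) d(volume.prod volume)` (`MeasurePreserving.lintegral_comp`)
and then `lintegral_prod` (the volume on `Ph × (Fin n → Ph)` is the product measure).
-/

open MeasureTheory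
open scoped ENNReal

namespace Vale.Agent.H32.P119

/-- K1 helper: the volume of the configuration space is sigma-finite. -/
theorem split_sf (n : ℕ) : SigmaFinite (volume : Measure (Fin n → Ph)) := by
  have h : ∀ i : Fin n, SigmaFinite ((fun _ : Fin n => (volume : Measure Ph)) i) :=
    fun _ => inferInstance
  exact Measure.pi.sigmaFinite (μ := fun _ : Fin n => (volume : Measure Ph))

/-- ROW K1. -/
theorem lintegral_split {n : ℕ} (i : Fin (n + 1)) (F : Ph → (Fin n → Ph) → ℝ≥0∞)
    (hF : Measurable (Function.uncurry F)) :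
    ∫⁻ z : Fin (n + 1) → Ph, F (z i) (i.removeNth z) = ∫⁻ y : Ph, ∫⁻ z' : Fin n → Ph, F y z' := by
  have hmp := volume_preserving_piFinSuccAbove (fun _ : Fin (n + 1) => Ph) i
  have h1 := hmp.lintegral_comp hF
  have h2 : ∫⁻ z : Fin (n + 1) → Ph, F (z i) (i.removeNth z)
      = ∫⁻ p : Ph × (Fin n → Ph), Function.uncurry F p := by
    rw [← h1]
    rfl
  have hs : SigmaFinite (volume : Measure (Fin n → Ph)) := split_sf n
  rw [h2]
  exact lintegral_prod (μ := (volume : Measure Ph)) (ν := (volume : Measure (Fin n → Ph)))
    (Function.uncurry F) hF.aemeasurable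

end Vale.Agent.H32.P119
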