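import Mathlib
import Vale.Agent.H32.P119.Split
import Vale.Agent.H32.P119.Point
import Vale.Agent.H32.P119.Meas

/-!
# P119 row K5 (Mecke): removing one particle from the weight

TASK K5 (proved; the statements are kept exactly); helper lemmas with names starting
`mecke_`.  Black boxes: `lintegral_split` (Split.lean), `exclI_removeNth`, `prod_removeNth`,
`farI_le_one` (Point.lean), the measurability lemmas of Meas.lean.
`Wn_succ`: unfold `Wn`; rewrite the integrand with `exclI_removeNth` and `prod_removeNth` as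
`F (z i) (i.removeNth z)` with
`F y z' = f0 y * (exclI ε z' * ((∏ j, f0 (z' j)) * (h y z' * farI ε y z')))` (`lintegral_congr`, `ring`);
`lintegral_split`; pull the constant `f0 y` out of the inner integral (`lintegral_const_mul`, the inner
integrand is measurable in `z'`: `hh.comp measurable_prodMk_left`).
`Wn_succ_le`: from `Wn_succ`, `farI ≤ 1`, `lintegral_mono`.
`measurable_Wn`: the integrand `exclI ε z' * ((∏ j, f0 (z' j)) * h y z')` is jointly measurable in y, z' on
the product, then `Measurable.lintegral_prod_right'`.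
-/

open MeasureTheory
open scoped ENNReal

namespace Vale.Agent.H32.P119

theorem mecke_measG (f0 : Ph → ℝ≥0∞) (hf : Measurable f0) (ε : ℝ) {n : ℕ}
    (h : Ph → (Fin n → Ph) → ℝ≥0∞) (hh : Measurable (Function.uncurry h)) :
    Measurable fun p : Ph × (Fin n → Ph) =>
      exclI ε p.2 * ((∏ j, f0 (p.2 j)) * (h p.1 p.2 * farI ε p.1 p.2)) := by
  have h1 : Measurable fun p : Ph × (Fin n → Ph) => exclI ε p.2 :=
    (measurable_exclI ε n).comp measurable_snd
  have h2 : Measurable fun p : Ph × (Fin n → Ph) => ∏ j, f0 (p.2 j) :=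
    (measurable_prod_f0 f0 hf n).comp measurable_snd
  have h3 : Measurable fun p : Ph × (Fin n → Ph) => h p.1 p.2 := hh
  exact h1.mul (h2.mul (h3.mul (measurable_farI ε n)))

theorem mecke_measH (f0 : Ph → ℝ≥0∞) (hf : Measurable f0) (ε : ℝ) {n : ℕ}
    (h : Ph → (Fin n → Ph) → ℝ≥0∞) (hh : Measurable (Function.uncurry h)) :
    Measurable fun p : Ph × (Fin n → Ph) =>
      exclI ε p.2 * ((∏ j, f0 (p.2 j)) * h p.1 p.2) := by
  have h1 : Measurable fun p : Ph × (Fin n → Ph) => exclI ε p.2 :=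
    (measurable_exclI ε n).comp measurable_snd
  have h2 : Measurable fun p : Ph × (Fin n → Ph) => ∏ j, f0 (p.2 j) :=
    (measurable_prod_f0 f0 hf n).comp measurable_snd
  have h3 : Measurable fun p : Ph × (Fin n → Ph) => h p.1 p.2 := hh
  exact h1.mul (h2.mul h3)

/-- ROW K5a. -/
theorem Wn_succ (f0 : Ph → ℝ≥0∞) (hf : Measurable f0) (ε : ℝ) {n : ℕ} (i : Fin (n + 1))
    (h : Ph → (Fin n → Ph) → ℝ≥0∞) (hh : Measurable (Function.uncurry h)) :
    Wn f0 ε (n + 1) (fun z => h (z i) (i.removeNth z))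
      = ∫⁻ y : Ph, f0 y * Wn f0 ε n (fun z' => h y z' * farI ε y z') := by
  unfold Wn
  have hG := mecke_measG f0 hf ε h hh
  obtain ⟨F, hFdef⟩ : ∃ F : Ph → (Fin n → Ph) → ℝ≥0∞, ∀ y z', F y z' =
      f0 y * (exclI ε z' * ((∏ j, f0 (z' j)) * (h y z' * farI ε y z'))) :=
    ⟨_, fun _ _ => rfl⟩
  have hF : Measurable (Function.uncurry F) := by
    have h0 : Measurable fun p : Ph × (Fin n → Ph) => f0 p.1 := hf.comp measurable_fst
    have e : Function.uncurry F = fun p : Ph × (Fin n → Ph) =>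
        f0 p.1 * (exclI ε p.2 * ((∏ j, f0 (p.2 j)) * (h p.1 p.2 * farI ε p.1 p.2))) := by
      funext p
      exact hFdef p.1 p.2
    rw [e]
    exact h0.mul hG
  have e1 : ∀ z : Fin (n + 1) → Ph,
      exclI ε z * ((∏ j, f0 (z j)) * h (z i) (i.removeNth z)) = F (z i) (i.removeNth z) := by
    intro z
    rw [hFdef, exclI_removeNth ε i z, prod_removeNth f0 i z]
    ring
  calc ∫⁻ z : Fin (n + 1) → Ph, exclI ε z * ((∏ j, f0 (z j)) * h (z i) (i.removeNth z))
      = ∫⁻ z : Fin (n + 1) → Ph, F (z i) (i.removeNth z) := lintegral_congr e1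
    _ = ∫⁻ y : Ph, ∫⁻ z' : Fin n → Ph, F y z' := lintegral_split i F hF
    _ = ∫⁻ y : Ph, f0 y * ∫⁻ z' : Fin n → Ph,
          exclI ε z' * ((∏ j, f0 (z' j)) * (h y z' * farI ε y z')) := by
        refine lintegral_congr fun y => ?_
        have hm : Measurable fun z' : Fin n → Ph =>
            exclI ε z' * ((∏ j, f0 (z' j)) * (h y z' * farI ε y z')) :=
          Measurable.comp (g := fun p : Ph × (Fin n → Ph) =>
            exclI ε p.2 * ((∏ j, f0 (p.2 j)) * (h p.1 p.2 * farI ε p.1 p.2)))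
            (f := fun z' : Fin n → Ph => (y, z')) hG measurable_prodMk_left
        rw [← lintegral_const_mul (f0 y) hm]
        exact lintegral_congr fun z' => hFdef y z'

/-- ROW K5b. -/
theorem Wn_succ_le (f0 : Ph → ℝ≥0∞) (hf : Measurable f0) (ε : ℝ) {n : ℕ} (i : Fin (n + 1))
    (h : Ph → (Fin n → Ph) → ℝ≥0∞) (hh : Measurable (Function.uncurry h)) :
    Wn f0 ε (n + 1) (fun z => h (z i) (i.removeNth z)) ≤ ∫⁻ y : Ph, f0 y * Wn f0 ε n (h y) := by
  rw [Wn_succ f0 hf ε i h hh]
  refine lintegral_mono fun y => ?_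
  refine mul_le_mul' le_rfl ?_
  unfold Wn
  refine lintegral_mono fun z' => ?_
  refine mul_le_mul' le_rfl (mul_le_mul' le_rfl ?_)
  calc h y z' * farI ε y z' ≤ h y z' * 1 := mul_le_mul' le_rfl (farI_le_one ε y z')
    _ = h y z' := mul_one _

/-- ROW K5c (Tonelli measurability; `Measurable.lintegral_prod_right'`). -/
theorem measurable_Wn (f0 : Ph → ℝ≥0∞) (hf : Measurable f0) (ε : ℝ) {n : ℕ}
    (h : Ph → (Fin n → Ph) → ℝ≥0∞) (hh : Measurable (Function.uncurry h)) :
    Measurable fun y : Ph => Wn f0 ε n (h y) := by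
  unfold Wn
  have : SigmaFinite (volume : Measure (Fin n → Ph)) :=
    Measure.pi.sigmaFinite (fun _ : Fin n => (volume : Measure Ph))
  exact (mecke_measH f0 hf ε h hh).lintegral_prod_right'

end Vale.Agent.H32.P119
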