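import Mathlib
import Vale.Agent.H32.P119.Mecke
import Vale.Agent.H32.P119.Ball

/-!
# P119 row K6 (AStep): the numbers `A_m = ∫ 1{Excl} ∏ f0` decrease slowly

TASK K6: replace every sorry, keep the statements exactly; helper lemmas with names starting
`astep_`.  Black boxes: `Wn_succ` (Mecke.lean), `lintegral_near_le` (Ball.lean), Point.lean,
Meas.lean.
`An_zero`: `Fin 0 → Ph` is a one-point space of volume `1` (`Measure.pi_of_empty`/`volume_pi`,
or `lintegral_unique`), `exclI_fin_zero`, empty product.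
`An_succ_eq`: `Wn_succ` with `i = 0`, `h = fun _ _ => 1`, then Tonelli
(`lintegral_lintegral_swap`) and `lintegral_const_mul`:
`A_(m+1) = ∫_z' exclI ε z' * ((∏ f0 (z' j)) * ∫_y f0 y * farI ε y z')`.
`An_succ_le`: `farI ≤ 1` and `∫ f0 = 1`.
`An_le_succ_add`: `1 = ∫ f0 ≤ ∫ f0 y farI ε y z' dy + ∑_j ∫ f0 y nearI ε y (z' j).1 dy
≤ ∫ f0 farI + m * kap C ε` (`one_le_farI_add`, `lintegral_finset_sum`, `lintegral_near_le`);
multiply by `exclI ε z' * ∏ f0 (z' j)` and integrate.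
`An_add_le`, `An_le_one`: induction from `An_succ_le`, `An_zero`.
-/

open MeasureTheory
open scoped ENNReal

namespace Vale.Agent.H32.P119

theorem astep_meas_right {α β : Type*} [MeasurableSpace α] [MeasurableSpace β]
    {F : α → β → ℝ≥0∞} (h : Measurable fun p : α × β => F p.1 p.2) (b : β) :
    Measurable fun a => F a b :=
  h.comp measurable_prodMk_right

theorem astep_meas_left {α β : Type*} [MeasurableSpace α] [MeasurableSpace β]
    {F : α → β → ℝ≥0∞} (h : Measurable fun p : α × β => F p.1 p.2) (a : α) :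
    Measurable fun b => F a b :=
  h.comp measurable_prodMk_left

theorem astep_swap {α β : Type*} [MeasurableSpace α] [MeasurableSpace β] (μ : Measure α)
    (ν : Measure β) [SFinite μ] [SFinite ν] (g : β → ℝ≥0∞) (f : α → ℝ≥0∞)
    (F : α → β → ℝ≥0∞) (hg : Measurable g) (hf : Measurable f)
    (hF : Measurable fun p : α × β => F p.1 p.2) :
    ∫⁻ a, f a * ∫⁻ b, g b * F a b ∂ν ∂μ = ∫⁻ b, g b * ∫⁻ a, f a * F a b ∂μ ∂ν := by
  calc ∫⁻ a, f a * ∫⁻ b, g b * F a b ∂ν ∂μ = ∫⁻ a, ∫⁻ b, g b * (f a * F a b) ∂ν ∂μ := by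
        apply lintegral_congr
        intro a
        rw [← lintegral_const_mul]
        · apply lintegral_congr
          intro b
          ring
        · exact hg.mul (astep_meas_left hF a)
    _ = ∫⁻ b, ∫⁻ a, g b * (f a * F a b) ∂μ ∂ν := by
        apply lintegral_lintegral_swap
        apply Measurable.aemeasurable
        exact (hg.comp measurable_snd).mul ((hf.comp measurable_fst).mul hF)
    _ = ∫⁻ b, g b * ∫⁻ a, f a * F a b ∂μ ∂ν := by
        apply lintegral_congr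
        intro b
        rw [lintegral_const_mul]
        exact hf.mul (astep_meas_right hF b)

/-- ROW K6a. -/
theorem An_zero (f0 : Ph → ℝ≥0∞) (ε : ℝ) : An f0 ε 0 = 1 := by
  unfold An Wn
  have h : ∀ z : Fin 0 → Ph, exclI ε z * ((∏ i, f0 (z i)) * 1) = 1 := by
    intro z
    rw [exclI_fin_zero]
    simp
  simp only [h]
  rw [lintegral_const, one_mul, volume_pi, Measure.pi_of_empty]
  simp

/-- ROW K6b. -/
theorem An_succ_le (f0 : Ph → ℝ≥0∞) (hf : Measurable f0) (hint : ∫⁻ z, f0 z = 1) (ε : ℝ)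
    (m : ℕ) : An f0 ε (m + 1) ≤ An f0 ε m := by
  have h := Wn_succ_le f0 hf ε (0 : Fin (m + 1))
    (fun (_ : Ph) (_ : Fin m → Ph) => (1 : ℝ≥0∞)) measurable_const
  have h2 : ∫⁻ y : Ph, f0 y * Wn f0 ε m (fun _ => (1 : ℝ≥0∞)) = An f0 ε m := by
    rw [lintegral_mul_const _ hf, hint, one_mul]
    rfl
  calc An f0 ε (m + 1) ≤ ∫⁻ y : Ph, f0 y * Wn f0 ε m (fun _ => (1 : ℝ≥0∞)) := h
    _ = An f0 ε m := h2

theorem astep_succ_eq (f0 : Ph → ℝ≥0∞) (hf : Measurable f0) (ε : ℝ) (m : ℕ) :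
    An f0 ε (m + 1) = ∫⁻ z' : Fin m → Ph,
      (exclI ε z' * ∏ j, f0 (z' j)) * ∫⁻ y : Ph, f0 y * farI ε y z' := by
  have h := Wn_succ f0 hf ε (0 : Fin (m + 1))
    (fun (_ : Ph) (_ : Fin m → Ph) => (1 : ℝ≥0∞)) measurable_const
  have h1 : An f0 ε (m + 1) = ∫⁻ y : Ph, f0 y * Wn f0 ε m (fun z' => 1 * farI ε y z') := h
  have hG : Measurable fun z' : Fin m → Ph => exclI ε z' * ∏ j, f0 (z' j) :=
    (measurable_exclI ε m).mul (measurable_prod_f0 f0 hf m)
  have h2 : ∀ y : Ph, Wn f0 ε m (fun z' => 1 * farI ε y z')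
      = ∫⁻ z' : Fin m → Ph, (exclI ε z' * ∏ j, f0 (z' j)) * farI ε y z' := by
    intro y
    unfold Wn
    apply lintegral_congr
    intro z'
    show exclI ε z' * ((∏ i, f0 (z' i)) * (1 * farI ε y z')) =
      (exclI ε z' * ∏ j, f0 (z' j)) * farI ε y z'
    rw [one_mul, mul_assoc]
  have hsf1 : SigmaFinite (volume : Measure Ph) := inferInstance
  have hsf2 : SFinite (volume : Measure (Fin m → Ph)) := inferInstance
  rw [h1]
  simp only [h2]
  exact astep_swap volume volume (fun z' : Fin m → Ph => exclI ε z' * ∏ j, f0 (z' j)) f0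
    (fun (y : Ph) (z' : Fin m → Ph) => farI ε y z') hG hf (measurable_farI ε m)

theorem astep_point (f0 : Ph → ℝ≥0∞) (hf : Measurable f0) (hint : ∫⁻ z, f0 z = 1)
    (C : ℝ≥0∞) (hρ : ∀ x : E3, ∫⁻ v : E3, f0 (x, v) ≤ C) (ε : ℝ) (hε : 0 < ε) (m : ℕ)
    (z' : Fin m → Ph) :
    1 ≤ (∫⁻ y : Ph, f0 y * farI ε y z') + (m : ℝ≥0∞) * kap C ε := by
  have hfar : Measurable fun y : Ph => farI ε y z' :=
    astep_meas_right (F := fun (y : Ph) (z' : Fin m → Ph) => farI ε y z') (measurable_farI ε m) z'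
  have hm1 : Measurable fun y : Ph => f0 y * farI ε y z' := hf.mul hfar
  calc (1 : ℝ≥0∞) = ∫⁻ y : Ph, f0 y := hint.symm
    _ ≤ ∫⁻ y : Ph, (f0 y * farI ε y z' + ∑ j, f0 y * nearI ε y (z' j).1) := by
        apply lintegral_mono
        intro y
        calc f0 y = f0 y * 1 := (mul_one _).symm
          _ ≤ f0 y * (farI ε y z' + ∑ j, nearI ε y (z' j).1) :=
              mul_le_mul' (le_refl _) (one_le_farI_add ε y z')
          _ = f0 y * farI ε y z' + ∑ j, f0 y * nearI ε y (z' j).1 := by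
              rw [mul_add, Finset.mul_sum]
    _ = (∫⁻ y : Ph, f0 y * farI ε y z') + ∑ j, ∫⁻ y : Ph, f0 y * nearI ε y (z' j).1 := by
        rw [lintegral_add_left hm1, lintegral_finsetSum]
        intro j _
        exact hf.mul (measurable_nearI ε (z' j).1)
    _ ≤ (∫⁻ y : Ph, f0 y * farI ε y z') + ∑ _j : Fin m, kap C ε :=
        add_le_add (le_refl _) (Finset.sum_le_sum
          (fun j _ => lintegral_near_le f0 hf C hρ ε hε (z' j).1))
    _ = (∫⁻ y : Ph, f0 y * farI ε y z') + (m : ℝ≥0∞) * kap C ε := by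
        rw [Finset.sum_const, Finset.card_univ, Fintype.card_fin, nsmul_eq_mul]

/-- ROW K6c. -/
theorem An_le_succ_add (f0 : Ph → ℝ≥0∞) (hf : Measurable f0) (hint : ∫⁻ z, f0 z = 1)
    (C : ℝ≥0∞) (hρ : ∀ x : E3, ∫⁻ v : E3, f0 (x, v) ≤ C) (ε : ℝ) (hε : 0 < ε) (m : ℕ) :
    An f0 ε m ≤ An f0 ε (m + 1) + (m : ℝ≥0∞) * kap C ε * An f0 ε m := by
  have hG : Measurable fun z' : Fin m → Ph => exclI ε z' * ∏ j, f0 (z' j) :=
    (measurable_exclI ε m).mul (measurable_prod_f0 f0 hf m)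
  have hA : An f0 ε m = ∫⁻ z' : Fin m → Ph, exclI ε z' * ∏ j, f0 (z' j) := by
    unfold An Wn
    apply lintegral_congr
    intro z
    rw [mul_one]
  rw [astep_succ_eq f0 hf ε m]
  calc An f0 ε m = ∫⁻ z' : Fin m → Ph, exclI ε z' * ∏ j, f0 (z' j) := hA
    _ ≤ ∫⁻ z' : Fin m → Ph, ((exclI ε z' * ∏ j, f0 (z' j)) * ∫⁻ y : Ph, f0 y * farI ε y z') +
          (exclI ε z' * ∏ j, f0 (z' j)) * ((m : ℝ≥0∞) * kap C ε) := by
        apply lintegral_mono
        intro z'
        calc exclI ε z' * ∏ j, f0 (z' j) = (exclI ε z' * ∏ j, f0 (z' j)) * 1 :=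
              (mul_one _).symm
          _ ≤ (exclI ε z' * ∏ j, f0 (z' j)) *
                ((∫⁻ y : Ph, f0 y * farI ε y z') + (m : ℝ≥0∞) * kap C ε) :=
              mul_le_mul' (le_refl _) (astep_point f0 hf hint C hρ ε hε m z')
          _ = _ := by rw [mul_add]
    _ = (∫⁻ z' : Fin m → Ph, (exclI ε z' * ∏ j, f0 (z' j)) * ∫⁻ y : Ph, f0 y * farI ε y z') +
          (m : ℝ≥0∞) * kap C ε * An f0 ε m := by
        rw [lintegral_add_right _ (hG.mul_const _), lintegral_mul_const _ hG, ← hA,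
          mul_comm (An f0 ε m)]

/-- ROW K6d. -/
theorem An_add_le (f0 : Ph → ℝ≥0∞) (hf : Measurable f0) (hint : ∫⁻ z, f0 z = 1) (ε : ℝ)
    (m k : ℕ) : An f0 ε (m + k) ≤ An f0 ε m := by
  induction k with
  | zero => exact le_refl _
  | succ k ih => exact le_trans (An_succ_le f0 hf hint ε (m + k)) ih

/-- ROW K6e. -/
theorem An_le_one (f0 : Ph → ℝ≥0∞) (hf : Measurable f0) (hint : ∫⁻ z, f0 z = 1) (ε : ℝ)
    (m : ℕ) : An f0 ε m ≤ 1 := by
  have h := An_add_le f0 hf hint ε 0 m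
  rw [zero_add, An_zero] at h
  exact h

end Vale.Agent.H32.P119
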