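import Mathlib
import Vale.Agent.H32.P119.Defs

/-!
# P119 row K7 (Coef): arithmetic of the coefficients `c_N = μ^N / N!`, `μ = ε^(-2)`

TASK K7: replace every sorry, keep the statements exactly; helper lemmas with names starting
`coef_`.  Everything is `ENNReal.ofReal` of an identity between nonnegative reals
(`ENNReal.ofReal_mul`, `ENNReal.ofReal_pow`, `ENNReal.ofReal_natCast`, `ENNReal.ofReal_one`);
`Nat.factorial_succ`, `Nat.factorial_mul_descFactorial` (or `Nat.descFactorial_eq_div`),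
`field_simp`.  `tsum_cw_lt_top`: `ENNReal.ofReal_tsum_of_nonneg` and
`Real.summable_pow_div_factorial`.
-/

open MeasureTheory
open scoped ENNReal

namespace Vale.Agent.H32.P119

theorem coef_m_nonneg (ε : ℝ) : 0 ≤ (ε ^ 2)⁻¹ := inv_nonneg.mpr (sq_nonneg ε)

/-- ROW K7a. -/
theorem cw_zero (ε : ℝ) : cw ε 0 = 1 := by
  unfold cw
  simp

/-- ROW K7b. -/
theorem cw_succ_mul (ε : ℝ) (n : ℕ) : cw ε (n + 1) * ((n : ℝ≥0∞) + 1) = mu ε * cw ε n := by
  unfold cw mu
  have h1 : ((n : ℝ≥0∞) + 1) = ENNReal.ofReal ((n : ℝ) + 1) := by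
    rw [ENNReal.ofReal_add (Nat.cast_nonneg n) zero_le_one, ENNReal.ofReal_natCast,
      ENNReal.ofReal_one]
  have hm := coef_m_nonneg ε
  rw [h1, ← ENNReal.ofReal_mul (by positivity), ← ENNReal.ofReal_mul hm]
  congr 1
  rw [Nat.factorial_succ]
  push_cast
  generalize (ε ^ 2)⁻¹ = m
  have hf : ((n.factorial : ℝ)) ≠ 0 := by positivity
  have hn : ((n : ℝ) + 1) ≠ 0 := by positivity
  field_simp
  ring

/-- ROW K7c. -/
theorem cw_add_mul_descFactorial (ε : ℝ) (n s : ℕ) :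
    cw ε (n + s) * ((n + s).descFactorial s : ℝ≥0∞) = mu ε ^ s * cw ε n := by
  induction s with
  | zero => simp
  | succ s ih =>
    have h1 : ((n + (s + 1)).descFactorial (s + 1) : ℝ≥0∞)
        = (((n + s : ℕ) : ℝ≥0∞) + 1) * ((n + s).descFactorial s : ℝ≥0∞) := by
      rw [← add_assoc, Nat.succ_descFactorial_succ]
      push_cast
      ring
    rw [h1, ← add_assoc, ← mul_assoc, cw_succ_mul ε (n + s), mul_assoc, ih, pow_succ]
    ring

/-- ROW K7d. -/
theorem tsum_cw_lt_top (ε : ℝ) : ∑' N : ℕ, cw ε N < ⊤ := by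
  unfold cw
  rw [← ENNReal.ofReal_tsum_of_nonneg (fun n => by positivity)
    (Real.summable_pow_div_factorial _)]
  exact ENNReal.ofReal_lt_top

/-- ROW K7e. -/
theorem mu_ne_top (ε : ℝ) : mu ε ≠ ⊤ := by
  unfold mu
  exact ENNReal.ofReal_ne_top

/-- ROW K7f. -/
theorem ofReal_pow_mul_mu_pow (ε : ℝ) (hε : 0 < ε) (s : ℕ) :
    ENNReal.ofReal ((ε ^ 2) ^ s) * mu ε ^ s = 1 := by
  unfold mu
  have hε2 : (ε ^ 2) ≠ 0 := by positivity
  rw [← ENNReal.ofReal_pow (coef_m_nonneg ε), ← ENNReal.ofReal_mul (by positivity), ← mul_pow,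
    mul_inv_cancel₀ hε2, one_pow, ENNReal.ofReal_one]

/-- ROW K7g. -/
theorem mu_mul_ofReal_cube (ε : ℝ) (hε : 0 < ε) :
    mu ε * ENNReal.ofReal (ε ^ 3) = ENNReal.ofReal ε := by
  unfold mu
  rw [← ENNReal.ofReal_mul (coef_m_nonneg ε)]
  congr 1
  have hε0 : ε ≠ 0 := ne_of_gt hε
  field_simp

end Vale.Agent.H32.P119
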