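import Mathlib
import Vale.Agent.H32.P119.AStep
import Vale.Agent.H32.P119.Coef

/-!
# P119 row K10 (Basic): `gc` in terms of `cw`, `Wn`; constants; the partition function

TASK K10: replace every sorry, keep the statements exactly; helper lemmas with names starting
`basic_`.  Black boxes: AStep.lean (`An_zero`, `An_le_one`), Coef.lean (`cw_zero`, `tsum_cw_lt_top`),
Meas.lean.
`gc_eq`: unfold `gc`, `cw`, `Wn`, `exclI`; under the integral
`Set.indicator S f z = Set.indicator S (fun _ => 1) z * f z` (by cases on `z ∈ S`).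
`Wn_const`: `lintegral_mul_const`/`lintegral_const_mul` (measurable: `measurable_exclI`,
`measurable_prod_f0`) and `ring`-type rewriting; `Wn_add`: `lintegral_add_left`.
`Zp_ne_zero`: the term `n = 0` is `1` (`ENNReal.le_tsum`); `Zp_ne_top`: `A_n ≤ 1` and `tsum_cw_lt_top`.
`card_emb`: `Fintype.card_embedding_eq`, `Fintype.card_fin`.
-/

open MeasureTheory
open scoped ENNReal

namespace Vale.Agent.H32.P119

/-- ROW K10a. -/
theorem gc_eq (f0 : Ph → ℝ≥0∞) (ε : ℝ) (φ : (N : ℕ) → (Fin N → Ph) → ℝ≥0∞) :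
    gc f0 ε φ = ∑' N : ℕ, cw ε N * Wn f0 ε N (φ N) := by
  unfold gc cw Wn
  refine tsum_congr fun N => ?_
  congr 1
  refine lintegral_congr fun z => ?_
  unfold exclI
  by_cases hz : z ∈ {z : Fin N → Ph | Excl ε z}
  · rw [Set.indicator_of_mem hz, Set.indicator_of_mem hz, one_mul]
  · rw [Set.indicator_of_notMem hz, Set.indicator_of_notMem hz, zero_mul]

/-- ROW K10b. -/
theorem Wn_const (f0 : Ph → ℝ≥0∞) (hf : Measurable f0) (ε : ℝ) (N : ℕ) (c : ℝ≥0∞) :
    Wn f0 ε N (fun _ => c) = c * An f0 ε N := by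
  unfold An Wn
  have hmeas : Measurable fun z : Fin N → Ph => exclI ε z * ((∏ i, f0 (z i)) * 1) :=
    (measurable_exclI ε N).mul ((measurable_prod_f0 f0 hf N).mul measurable_const)
  rw [← lintegral_const_mul c hmeas]
  refine lintegral_congr fun z => ?_
  ring

/-- ROW K10c. -/
theorem Wn_add (f0 : Ph → ℝ≥0∞) (hf : Measurable f0) (ε : ℝ) (N : ℕ)
    (φ ψ : (Fin N → Ph) → ℝ≥0∞) (hφ : Measurable φ) :
    Wn f0 ε N (fun z => φ z + ψ z) = Wn f0 ε N φ + Wn f0 ε N ψ := by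
  unfold Wn
  have hmeas : Measurable fun z : Fin N → Ph => exclI ε z * ((∏ i, f0 (z i)) * φ z) :=
    (measurable_exclI ε N).mul ((measurable_prod_f0 f0 hf N).mul hφ)
  rw [← lintegral_add_left hmeas]
  refine lintegral_congr fun z => ?_
  ring

/-- ROW K10d. -/
theorem gc_one (f0 : Ph → ℝ≥0∞) (ε : ℝ) : gc f0 ε (fun _ _ => 1) = Zp f0 ε := by
  rw [gc_eq]
  rfl

/-- ROW K10e. -/
theorem Zp_ne_zero (f0 : Ph → ℝ≥0∞) (ε : ℝ) : Zp f0 ε ≠ 0 := by
  have h : (1 : ℝ≥0∞) ≤ Zp f0 ε := by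
    unfold Zp
    calc (1 : ℝ≥0∞) = cw ε 0 * An f0 ε 0 := by rw [cw_zero, An_zero, one_mul]
      _ ≤ ∑' n : ℕ, cw ε n * An f0 ε n :=
          ENNReal.le_tsum (f := fun n : ℕ => cw ε n * An f0 ε n) 0
  intro h0
  rw [h0] at h
  exact absurd h (not_le.2 zero_lt_one)

/-- ROW K10f. -/
theorem Zp_ne_top (f0 : Ph → ℝ≥0∞) (hf : Measurable f0) (hint : ∫⁻ z, f0 z = 1) (ε : ℝ) :
    Zp f0 ε ≠ ⊤ := by
  have h : Zp f0 ε ≤ ∑' N : ℕ, cw ε N := by
    unfold Zp
    refine ENNReal.tsum_le_tsum fun n => ?_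
    calc cw ε n * An f0 ε n ≤ cw ε n * 1 := by
          gcongr
          exact An_le_one f0 hf hint ε n
      _ = cw ε n := mul_one _
  exact (lt_of_le_of_lt h (tsum_cw_lt_top ε)).ne

/-- ROW K10g. -/
theorem card_emb (s N : ℕ) : Fintype.card (Fin s ↪ Fin N) = N.descFactorial s := by
  rw [Fintype.card_embedding_eq, Fintype.card_fin, Fintype.card_fin]

end Vale.Agent.H32.P119
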