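import Mathlib
import Vale.Agent.H32.P119.Defs

/-!
# P119 row K15 (Flow): the free flow preserves Lebesgue measure

TASK K15: every placeholder replaced, statements kept exactly; helper lemmas with names starting
`flow_`.  `flow t (x, v) = (x + t • v, v)` on `Ph = E3 × E3` (product volume).
`measurePreserving_flow`: `flow t = Prod.swap ∘ (fun p => (p.1, p.2 + t • p.1)) ∘ Prod.swap`;
the middle map is a skew product of the identity with translations
(`MeasurePreserving.skew_product`, `measurePreserving_add_right`/`map_add_right_eq_self`),
`Measure.measurePreserving_swap` (`Measure.volume_eq_prod`).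
`lintegral_flow`: the map `w ↦ fun k => flow t (w k)` preserves the volume of `Fin s → Ph`
(`volume_preserving_pi`); apply `MeasurePreserving.lintegral_comp` to
`G z = a z * ∏ k, f0 (flow (-t) (z k))` and use `flow_neg_flow`; unfold `Lf`.
-/

open MeasureTheory
open scoped ENNReal

namespace Vale.Agent.H32.P119

/-- ROW K15a. -/
theorem measurable_flow (t : ℝ) : Measurable (flow t) := by
  unfold flow
  exact (measurable_fst.add (measurable_snd.const_smul t)).prodMk measurable_snd

/-- ROW K15b. -/
theorem flow_neg_flow (t : ℝ) (z : Ph) : flow (-t) (flow t z) = z := by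
  unfold flow
  apply Prod.ext
  · simp only [neg_smul, add_neg_cancel_right]
  · rfl

/-- The shear of the second coordinate along the first preserves the product measure. -/
theorem flow_shear (t : ℝ) :
    MeasurePreserving (fun p : E3 × E3 => (p.1, p.2 + t • p.1))
      ((volume : Measure E3).prod (volume : Measure E3))
      ((volume : Measure E3).prod (volume : Measure E3)) := by
  have hgm : Measurable (Function.uncurry (fun (v : E3) (x : E3) => x + t • v)) := by
    unfold Function.uncurry
    exact measurable_snd.add (measurable_fst.const_smul t)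
  exact MeasurePreserving.skew_product (g := fun (v : E3) (x : E3) => x + t • v)
    (MeasurePreserving.id (volume : Measure E3)) hgm
    (Filter.Eventually.of_forall fun v => map_add_right_eq_self (volume : Measure E3) (t • v))

/-- ROW K15c. -/
theorem measurePreserving_flow (t : ℝ) :
    MeasurePreserving (flow t) (volume : Measure Ph) (volume : Measure Ph) := by
  have h1 : MeasurePreserving (Prod.swap : E3 × E3 → E3 × E3)
      ((volume : Measure E3).prod (volume : Measure E3))
      ((volume : Measure E3).prod (volume : Measure E3)) := Measure.measurePreserving_swap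
  have h2 := (h1.comp (flow_shear t)).comp h1
  have h3 : flow t = (Prod.swap : E3 × E3 → E3 × E3) ∘
      (fun p : E3 × E3 => (p.1, p.2 + t • p.1)) ∘ (Prod.swap : E3 × E3 → E3 × E3) := by
    funext z
    rfl
  rw [h3]
  exact h2

/-- ROW K15d. -/
theorem lintegral_flow (f0 : Ph → ℝ≥0∞) (hf : Measurable f0) (s : ℕ) (t : ℝ)
    (a : (Fin s → Ph) → ℝ≥0∞) (ha : Measurable a) :
    ∫⁻ z : Fin s → Ph, a z * ∏ k, f0 (flow (-t) (z k))
      = Lf f0 (fun w => a fun k => flow t (w k)) := by
  have hT : MeasurePreserving (fun (w : Fin s → Ph) (k : Fin s) => flow t (w k))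
      (volume : Measure (Fin s → Ph)) (volume : Measure (Fin s → Ph)) :=
    volume_preserving_pi (fun _ => measurePreserving_flow t)
  have hG : Measurable (fun z : Fin s → Ph => a z * ∏ k, f0 (flow (-t) (z k))) :=
    ha.mul (Finset.measurable_prod _
      (fun k _ => hf.comp ((measurable_flow (-t)).comp (measurable_pi_apply k))))
  rw [← hT.lintegral_comp hG]
  unfold Lf
  simp only [flow_neg_flow]

end Vale.Agent.H32.P119
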