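import Mathlib
import Vale.Agent.H32.P119.Coef

/-!
# P119 row K9 (Reindex): `∑_N c_N N(N-1)…(N-s+1) G(N) = μ^s ∑_n c_n G(n+s)`

TASK K9: replace the sorry, keep the statement exactly; helper lemmas with names starting
`reindex_`.  Black box: `cw_add_mul_descFactorial` (Coef.lean).
The terms with `N < s` vanish (`Nat.descFactorial_eq_zero_iff_lt`); shift the index by `s`
(`ENNReal.summable`, `Summable.sum_add_tsum_nat_add` or `tsum_eq_tsum_of_ne_zero_bij` with
`n ↦ n + s`; or induction on `s`), then `ENNReal.tsum_mul_left`.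
-/

open MeasureTheory
open scoped ENNReal

namespace Vale.Agent.H32.P119

/-- ROW K9. -/
theorem tsum_cw_descFactorial (ε : ℝ) (s : ℕ) (G : ℕ → ℝ≥0∞) :
    ∑' N : ℕ, cw ε N * ((N.descFactorial s : ℝ≥0∞) * G N)
      = mu ε ^ s * ∑' n : ℕ, cw ε n * G (n + s) := by
  have hinj : Function.Injective (fun n : ℕ => n + s) := add_left_injective s
  have hsupp : Function.support (fun N : ℕ => cw ε N * ((N.descFactorial s : ℝ≥0∞) * G N))
      ⊆ Set.range (fun n : ℕ => n + s) := by
    intro N hN
    by_contra hnot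
    apply hN
    have hlt : N < s := by
      by_contra hge
      push Not at hge
      exact hnot ⟨N - s, Nat.sub_add_cancel hge⟩
    have h0 : N.descFactorial s = 0 := Nat.descFactorial_eq_zero_iff_lt.mpr hlt
    simp [h0]
  rw [← hinj.tsum_eq hsupp, ← ENNReal.tsum_mul_left]
  refine tsum_congr fun n => ?_
  rw [← mul_assoc, cw_add_mul_descFactorial, mul_assoc]

end Vale.Agent.H32.P119
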