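import Mathlib
import Vale.Agent.H32.P119.Basic
import Vale.Agent.H32.P119.Reindex

/-!
# P119 row K14 (NumMoment): the factorial moment of the particle number, and additivity

Row K14: both statements are proved below (statements unchanged).  Black boxes: `gc_eq`, `Wn_const`, `Wn_add`, `card_emb` (Basic.lean),
`tsum_cw_descFactorial` (Reindex.lean), Meas.lean.
`gc_emb_one`: `∑ ι, 1 = N.descFactorial s` (`Finset.sum_const`, `Finset.card_univ`, `card_emb`,
`nsmul_eq_mul`, `mul_one`), `Wn_const`, `tsum_cw_descFactorial` with `G = An f0 ε`; `Zk` is in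
Defs.lean.
`gc_emb_add`: `Finset.sum_add_distrib`, `Wn_add` (the first family is measurable:
`Finset.measurable_sum`, `ha.comp` of `measurable_pi_lambda`), `mul_add`, `ENNReal.tsum_add`.
-/

open MeasureTheory
open scoped ENNReal

namespace Vale.Agent.H32.P119

/-- ROW K14a. -/
theorem gc_emb_one (f0 : Ph → ℝ≥0∞) (hf : Measurable f0) (ε : ℝ) (s : ℕ) :
    gc f0 ε (fun N _ => ∑ _ι : Fin s ↪ Fin N, (1 : ℝ≥0∞)) = mu ε ^ s * Zk f0 ε s := by
  rw [gc_eq]
  have h : ∀ N : ℕ, cw ε N * Wn f0 ε N (fun _ => ∑ _ι : Fin s ↪ Fin N, (1 : ℝ≥0∞))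
      = cw ε N * ((N.descFactorial s : ℝ≥0∞) * An f0 ε N) := by
    intro N
    rw [Wn_const f0 hf ε N]
    congr 2
    rw [Finset.sum_const, Finset.card_univ, card_emb, nsmul_eq_mul, mul_one]
  rw [tsum_congr h, tsum_cw_descFactorial]
  rfl

/-- ROW K14b. -/
theorem gc_emb_add (f0 : Ph → ℝ≥0∞) (hf : Measurable f0) (ε : ℝ) (s : ℕ)
    (a b : (Fin s → Ph) → ℝ≥0∞) (ha : Measurable a) (hb : Measurable b) :
    gc f0 ε (fun N z => ∑ ι : Fin s ↪ Fin N, ((a fun k => z (ι k)) + b fun k => z (ι k)))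
      = gc f0 ε (fun N z => ∑ ι : Fin s ↪ Fin N, a fun k => z (ι k))
        + gc f0 ε (fun N z => ∑ ι : Fin s ↪ Fin N, b fun k => z (ι k)) := by
  rw [gc_eq, gc_eq, gc_eq, ← ENNReal.tsum_add]
  refine tsum_congr fun N => ?_
  rw [← mul_add]
  congr 1
  have h : (fun z : Fin N → Ph =>
      ∑ ι : Fin s ↪ Fin N, ((a fun k => z (ι k)) + b fun k => z (ι k)))
      = fun z : Fin N → Ph => (∑ ι : Fin s ↪ Fin N, a fun k => z (ι k))
        + ∑ ι : Fin s ↪ Fin N, b fun k => z (ι k) := by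
    funext z
    rw [Finset.sum_add_distrib]
  rw [h]
  exact Wn_add f0 hf ε N _ _ (Finset.measurable_sum _ fun ι _ =>
    ha.comp (measurable_pi_lambda _ fun k => measurable_pi_apply (ι k)))

end Vale.Agent.H32.P119
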