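import Mathlib
import Vale.Agent.H32.P119.Split
import Vale.Agent.H32.P119.Meas

/-!
# P119 row K11 (LSplit): the functional `L(a) = ∫ a ∏ f0`

TASK K11: replace every sorry, keep the statements exactly; helper lemmas with names starting
`lsplit_`.  Black boxes: `lintegral_split` (Split.lean), Meas.lean.
`Lf_zero`: `Fin 0 → Ph` is a one-point space of volume `1`; empty product; every point of it
equals `default` (`Subsingleton.elim`).
`Lf_succ`: `lintegral_split` at `i = 0` with `F y w = a (Fin.cons y w) * (f0 y * ∏ k, f0 (w k))`: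
`Fin.cons (z 0) ((0 : Fin (s+1)).removeNth z) = z` (`Fin.removeNth_zero`/`Fin.cons_self_tail`,
`Fin.tail`), `Fin.prod_univ_succ`; pull `f0 y` out (`lintegral_const_mul`).  Measurability of
the map sending the pair y, w to `a (Fin.cons y w)`: `ha.comp` of a measurable map (`measurable_pi_iff`, `Fin.cases`).
`Lf_one`: induction on `s` from `Lf_zero` and `Lf_succ` (`∫ f0 y * 1 dy = 1`); Mathlib has no
`lintegral` version of `integral_fintype_prod_eq_prod`.
`Lf_add`: `lintegral_add_left`.  `Lf_mono`: `lintegral_mono`.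
-/

open MeasureTheory
open scoped ENNReal

namespace Vale.Agent.H32.P119

/-- helper: the map sending the pair y, w to `Fin.cons y w` is measurable. -/
theorem lsplit_cons (s : ℕ) :
    Measurable fun p : Ph × (Fin s → Ph) => (Fin.cons p.1 p.2 : Fin (s + 1) → Ph) := by
  rw [measurable_pi_iff]
  intro i
  refine Fin.cases ?_ (fun j => ?_) i
  · simp only [Fin.cons_zero]
    exact measurable_fst
  · simp only [Fin.cons_succ]
    exact (measurable_pi_apply j).comp measurable_snd

/-- helper: measurability of the integrand of the split. -/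
theorem lsplit_uncurry (f0 : Ph → ℝ≥0∞) (hf : Measurable f0) {s : ℕ}
    (a : (Fin (s + 1) → Ph) → ℝ≥0∞) (ha : Measurable a) :
    Measurable (Function.uncurry
      (fun (y : Ph) (w : Fin s → Ph) => a (Fin.cons y w) * (f0 y * ∏ k, f0 (w k)))) := by
  have h1 : Measurable fun p : Ph × (Fin s → Ph) => a (Fin.cons p.1 p.2) :=
    ha.comp (lsplit_cons s)
  have h2 : Measurable fun p : Ph × (Fin s → Ph) => f0 p.1 := hf.comp measurable_fst
  have h3 : Measurable fun p : Ph × (Fin s → Ph) => ∏ k, f0 (p.2 k) :=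
    (measurable_prod_f0 f0 hf s).comp measurable_snd
  exact h1.mul (h2.mul h3)

/-- ROW K11a. -/
theorem Lf_zero (f0 : Ph → ℝ≥0∞) (a : (Fin 0 → Ph) → ℝ≥0∞) : Lf f0 a = a default := by
  unfold Lf
  have h : ∀ w : Fin 0 → Ph, a w * ∏ k, f0 (w k) = a default := by
    intro w
    rw [Subsingleton.elim w default]
    simp
  simp only [h]
  rw [lintegral_const]
  have hv : (volume : Measure (Fin 0 → Ph)) Set.univ = 1 := by
    rw [volume_pi, Measure.pi_univ]
    simp
  rw [hv, mul_one]

/-- ROW K11b. -/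
theorem Lf_succ (f0 : Ph → ℝ≥0∞) (hf : Measurable f0) {s : ℕ} (a : (Fin (s + 1) → Ph) → ℝ≥0∞)
    (ha : Measurable a) :
    Lf f0 a = ∫⁻ y : Ph, f0 y * Lf f0 (fun w : Fin s → Ph => a (Fin.cons y w)) := by
  unfold Lf
  have hsplit := lintegral_split (0 : Fin (s + 1))
    (fun (y : Ph) (w : Fin s → Ph) => a (Fin.cons y w) * (f0 y * ∏ k, f0 (w k)))
    (lsplit_uncurry f0 hf a ha)
  have hL : ∫⁻ z : Fin (s + 1) → Ph, a z * ∏ k, f0 (z k)
      = ∫⁻ z : Fin (s + 1) → Ph, a (Fin.cons (z 0) ((0 : Fin (s + 1)).removeNth z))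
          * (f0 (z 0) * ∏ k, f0 ((0 : Fin (s + 1)).removeNth z k)) := by
    apply lintegral_congr
    intro z
    have h2 : (0 : Fin (s + 1)).removeNth z = fun k => z k.succ := by
      funext k
      simp [Fin.removeNth]
    have h3 : (Fin.cons (z 0) (fun k : Fin s => z k.succ) : Fin (s + 1) → Ph) = z :=
      Fin.cons_self_tail z
    rw [h2, h3, Fin.prod_univ_succ]
  refine hL.trans (hsplit.trans ?_)
  apply lintegral_congr
  intro y
  have hm : Measurable fun w : Fin s → Ph => a (Fin.cons y w) * ∏ k, f0 (w k) :=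
    (ha.comp ((lsplit_cons s).comp measurable_prodMk_left)).mul (measurable_prod_f0 f0 hf s)
  rw [← lintegral_const_mul (f0 y) hm]
  apply lintegral_congr
  intro w
  ring

/-- ROW K11c. -/
theorem Lf_one (f0 : Ph → ℝ≥0∞) (hf : Measurable f0) (hint : ∫⁻ z, f0 z = 1) (s : ℕ) :
    Lf f0 (fun _ : Fin s → Ph => (1 : ℝ≥0∞)) = 1 := by
  induction s with
  | zero => rw [Lf_zero]
  | succ n ih =>
    rw [Lf_succ f0 hf (fun _ : Fin (n + 1) → Ph => (1 : ℝ≥0∞)) measurable_const]
    simp only [ih, mul_one]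
    exact hint

/-- ROW K11d. -/
theorem Lf_add (f0 : Ph → ℝ≥0∞) (hf : Measurable f0) {s : ℕ} (a b : (Fin s → Ph) → ℝ≥0∞)
    (ha : Measurable a) : Lf f0 (fun w => a w + b w) = Lf f0 a + Lf f0 b := by
  unfold Lf
  simp only [add_mul]
  exact lintegral_add_left (ha.mul (measurable_prod_f0 f0 hf s)) _

/-- ROW K11e. -/
theorem Lf_mono (f0 : Ph → ℝ≥0∞) {s : ℕ} (a b : (Fin s → Ph) → ℝ≥0∞) (hab : ∀ w, a w ≤ b w) :
    Lf f0 a ≤ Lf f0 b := by
  unfold Lf
  apply lintegral_mono
  intro w
  exact mul_le_mul' (hab w) le_rfl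

/-- ROW K11f (Tonelli measurability; `Measurable.lintegral_prod_right'`). -/
theorem measurable_Lf_cons (f0 : Ph → ℝ≥0∞) (hf : Measurable f0) {s : ℕ}
    (a : (Fin (s + 1) → Ph) → ℝ≥0∞) (ha : Measurable a) :
    Measurable fun y : Ph => Lf f0 (fun w : Fin s → Ph => a (Fin.cons y w)) := by
  unfold Lf
  have h : Measurable fun p : Ph × (Fin s → Ph) => a (Fin.cons p.1 p.2) * ∏ k, f0 (p.2 k) :=
    (ha.comp (lsplit_cons s)).mul ((measurable_prod_f0 f0 hf s).comp measurable_snd)
  have lsplit_sf : SigmaFinite (volume : Measure (Fin s → Ph)) := by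
    rw [volume_pi]
    exact Measure.pi.sigmaFinite _
  exact h.lintegral_prod_right'

/-- ROW K11g: the map sending the pair y, w to `Fin.cons y w` is measurable. -/
theorem measurable_cons (s : ℕ) :
    Measurable fun p : Ph × (Fin s → Ph) => (Fin.cons p.1 p.2 : Fin (s + 1) → Ph) := by
  exact lsplit_cons s

end Vale.Agent.H32.P119
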