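import Mathlib
import Vale.Agent.H32.P119.Mecke
import Vale.Agent.H32.P119.LSplit
import Vale.Agent.H32.P119.Basic

/-!
# P119 row K12 (UpperOne): the upper bound for one embedding

TASK K12 (done): statement kept exactly; no helper lemmas were needed.  Black boxes: `Wn_succ_le` (Mecke.lean), `Lf_zero`, `Lf_succ` (LSplit.lean),
`Wn_const` (Basic.lean), Meas.lean.
Induction on `s`, for all `N`, `ι`, `a`.
`s = 0`: `fun k => z (ι k) = default` (`Subsingleton.elim`), so the left side is
`Wn (fun _ => a default) = a default * A_N` (`Wn_const`) and `Lf f0 a = a default` (`Lf_zero`).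
Step `s + 1`: `N = n + 1` (no embedding of `Fin (s+1)` into `Fin 0`); `i := ι 0`;
for each `k : Fin s`, `ι k.succ ≠ i` gives `j` with `i.succAbove j = ι k.succ`
(`Fin.exists_succAbove_eq`); choose `ι' : Fin s ↪ Fin n` this way (injective because `ι` is).
Then `fun k => z (ι k)` equals `Fin.cons (z i) (fun k => i.removeNth z (ι' k))` (`Fin.cases`), so the
left side is `Wn (n+1) (fun z => h (z i) (i.removeNth z))` with
`h y z' = a (Fin.cons y (fun k => z' (ι' k)))`; `Wn_succ_le`, the induction hypothesis for
`a_y = fun w => a (Fin.cons y w)` and `ι'` (`lintegral_mono`, `mul_le_mul_left'`),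
pull the constant `A_(n-s)` out (`lintegral_mul_const'`: it is finite, `An_le_one` from AStep.lean
via Basic.lean needs `hint`; or `lintegral_mul_const` with `measurable_Lf_cons`) and `Lf_succ`;
`n + 1 - (s + 1) = n - s`.
-/

open MeasureTheory
open scoped ENNReal

namespace Vale.Agent.H32.P119

/-- ROW K12. -/
theorem Wn_emb_le (f0 : Ph → ℝ≥0∞) (hf : Measurable f0) (hint : ∫⁻ z, f0 z = 1) (ε : ℝ) :
    ∀ (s N : ℕ) (ι : Fin s ↪ Fin N) (a : (Fin s → Ph) → ℝ≥0∞), Measurable a →
      Wn f0 ε N (fun z => a fun k => z (ι k)) ≤ Lf f0 a * An f0 ε (N - s) := by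
  intro s
  induction s with
  | zero =>
    intro N ι a ha
    have h1 : (fun z : Fin N → Ph => a fun k => z (ι k)) = fun _ => a default := by
      funext z
      congr 1
      exact Subsingleton.elim _ _
    rw [h1, Wn_const f0 hf ε N (a default), Lf_zero, Nat.sub_zero]
  | succ s ih =>
    intro N ι a ha
    cases N with
    | zero => exact (ι 0).elim0
    | succ n =>
      have hne : ∀ k : Fin s, ι k.succ ≠ ι 0 := by
        intro k hk
        exact Fin.succ_ne_zero k (ι.injective hk)
      choose j hj using fun k : Fin s => Fin.exists_succAbove_eq (hne k)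
      have hjinj : Function.Injective j := by
        intro k k' hkk
        have h1 : ι k.succ = ι k'.succ := by rw [← hj k, ← hj k', hkk]
        exact Fin.succ_injective _ (ι.injective h1)
      have hrew : (fun z : Fin (n + 1) → Ph => a fun k => z (ι k))
          = fun z => (fun (y : Ph) (z' : Fin n → Ph) => a (Fin.cons y (fun k => z' (j k))))
              (z (ι 0)) ((ι 0).removeNth z) := by
        funext z
        show a (fun k => z (ι k)) = a (Fin.cons (z (ι 0)) (fun k => (ι 0).removeNth z (j k)))
        congr 1
        funext k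
        refine Fin.cases ?_ ?_ k
        · simp
        · intro k
          rw [Fin.cons_succ]
          show z (ι k.succ) = z ((ι 0).succAbove (j k))
          rw [hj k]
      have hmeas_map : Measurable fun p : Ph × (Fin n → Ph) =>
          ((p.1, fun k => p.2 (j k)) : Ph × (Fin s → Ph)) := by
        refine Measurable.prodMk measurable_fst ?_
        refine measurable_pi_lambda _ (fun k => ?_)
        exact (measurable_pi_apply (j k)).comp measurable_snd
      have hh : Measurable (Function.uncurry
          (fun (y : Ph) (z' : Fin n → Ph) => a (Fin.cons y (fun k => z' (j k))))) :=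
        ha.comp ((measurable_cons s).comp hmeas_map)
      rw [hrew]
      refine le_trans (Wn_succ_le f0 hf ε (ι 0) _ hh) ?_
      have hstep : ∀ y : Ph,
          f0 y * Wn f0 ε n (fun z' : Fin n → Ph => a (Fin.cons y (fun k => z' (j k))))
            ≤ f0 y * Lf f0 (fun w : Fin s → Ph => a (Fin.cons y w)) * An f0 ε (n - s) := by
        intro y
        have hay : Measurable (fun w : Fin s → Ph => a (Fin.cons y w)) := by
          have h2 : Measurable fun w : Fin s → Ph => ((y, w) : Ph × (Fin s → Ph)) :=
            measurable_prodMk_left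
          exact ha.comp ((measurable_cons s).comp h2)
        have hih := ih n ⟨j, hjinj⟩ (fun w => a (Fin.cons y w)) hay
        rw [mul_assoc]
        exact mul_le_mul' le_rfl hih
      calc ∫⁻ y : Ph, f0 y * Wn f0 ε n (fun z' : Fin n → Ph => a (Fin.cons y (fun k => z' (j k))))
          ≤ ∫⁻ y : Ph, f0 y * Lf f0 (fun w : Fin s → Ph => a (Fin.cons y w)) * An f0 ε (n - s) :=
            lintegral_mono hstep
        _ = (∫⁻ y : Ph, f0 y * Lf f0 (fun w : Fin s → Ph => a (Fin.cons y w)))
              * An f0 ε (n - s) :=
            lintegral_mul_const _ (hf.mul (measurable_Lf_cons f0 hf a ha))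
        _ = Lf f0 a * An f0 ε (n + 1 - (s + 1)) := by
            rw [← Lf_succ f0 hf a ha, Nat.add_sub_add_right]

end Vale.Agent.H32.P119
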