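import Mathlib
import Vale.Agent.H32.P119.UpperOne
import Vale.Agent.H32.P119.Reindex

/-!
# P119 row K13 (UpperSum): the upper bound `∑_N c_N W_N(∑_ι a(z∘ι)) ≤ μ^s L(a) Z`

TASK K13: replace the sorry, keep the statement exactly; helper lemmas with names starting
`upsum_`.  Black boxes: `Wn_emb_le` (UpperOne.lean), `tsum_cw_descFactorial` (Reindex.lean),
`gc_eq`, `card_emb` (Basic.lean), Meas.lean.
`gc_eq`; for each `N`: `Wn (∑_ι …) = ∑_ι Wn (…)` (unfold `Wn`, `Finset.mul_sum`,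
`lintegral_finset_sum`, measurability of `z ↦ a (fun k => z (ι k))`), each term
`≤ L(a) A_(N-s)` (`Wn_emb_le`), so the sum is `≤ card (Fin s ↪ Fin N) * (L(a) A_(N-s))
= N.descFactorial s * (L(a) A_(N-s))` (`Finset.sum_le_card_nsmul`/`Finset.sum_const`, `card_emb`);
`tsum_cw_descFactorial` with `G N = L(a) * A_(N-s)` (`Nat.add_sub_cancel`), `ENNReal.tsum_mul_left`.
-/

open MeasureTheory
open scoped ENNReal

namespace Vale.Agent.H32.P119

theorem upsum_Wn_sum (f0 : Ph → ℝ≥0∞) (hf : Measurable f0) (ε : ℝ) (s N : ℕ)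
    (a : (Fin s → Ph) → ℝ≥0∞) (ha : Measurable a) :
    Wn f0 ε N (fun z => ∑ ι : Fin s ↪ Fin N, a fun k => z (ι k)) =
      ∑ ι : Fin s ↪ Fin N, Wn f0 ε N (fun z => a fun k => z (ι k)) := by
  unfold Wn
  simp only [Finset.mul_sum]
  rw [lintegral_finsetSum]
  intro ι _
  exact (measurable_exclI ε N).mul ((measurable_prod_f0 f0 hf N).mul
    (ha.comp (measurable_pi_lambda _ (fun k => measurable_pi_apply (ι k)))))

/-- ROW K13. -/
theorem gc_emb_le (f0 : Ph → ℝ≥0∞) (hf : Measurable f0) (hint : ∫⁻ z, f0 z = 1) (ε : ℝ) (s : ℕ)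
    (a : (Fin s → Ph) → ℝ≥0∞) (ha : Measurable a) :
    gc f0 ε (fun N z => ∑ ι : Fin s ↪ Fin N, a fun k => z (ι k))
      ≤ mu ε ^ s * Lf f0 a * Zp f0 ε := by
  rw [gc_eq]
  have hterm : ∀ N : ℕ,
      cw ε N * Wn f0 ε N (fun z => ∑ ι : Fin s ↪ Fin N, a fun k => z (ι k)) ≤
      cw ε N * ((N.descFactorial s : ℝ≥0∞) * (Lf f0 a * An f0 ε (N - s))) := by
    intro N
    gcongr
    rw [upsum_Wn_sum f0 hf ε s N a ha]
    calc ∑ ι : Fin s ↪ Fin N, Wn f0 ε N (fun z => a fun k => z (ι k))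
        ≤ ∑ _ι : Fin s ↪ Fin N, Lf f0 a * An f0 ε (N - s) :=
          Finset.sum_le_sum (fun ι _ => Wn_emb_le f0 hf hint ε s N ι a ha)
      _ = (N.descFactorial s : ℝ≥0∞) * (Lf f0 a * An f0 ε (N - s)) := by
          rw [Finset.sum_const, Finset.card_univ, card_emb, nsmul_eq_mul]
  calc ∑' N : ℕ, cw ε N * Wn f0 ε N (fun z => ∑ ι : Fin s ↪ Fin N, a fun k => z (ι k))
      ≤ ∑' N : ℕ, cw ε N * ((N.descFactorial s : ℝ≥0∞) * (Lf f0 a * An f0 ε (N - s))) :=
        ENNReal.tsum_le_tsum hterm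
    _ = mu ε ^ s * ∑' n : ℕ, cw ε n * (Lf f0 a * An f0 ε (n + s - s)) :=
        tsum_cw_descFactorial ε s (fun N => Lf f0 a * An f0 ε (N - s))
    _ = mu ε ^ s * Lf f0 a * Zp f0 ε := by
        have h1 : ∀ n : ℕ, cw ε n * (Lf f0 a * An f0 ε (n + s - s)) =
            Lf f0 a * (cw ε n * An f0 ε n) := by
          intro n
          rw [Nat.add_sub_cancel]
          ring
        simp only [h1]
        rw [ENNReal.tsum_mul_left, ← mul_assoc]
        rfl

end Vale.Agent.H32.P119
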