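import Mathlib
import Vale.Agent.H32.P119.AStep
import Vale.Agent.H32.P119.Coef

/-!
# P119 row K8 (ZChain): the shifted partition sums `Z^(k) = ∑_n c_n A_(n+k)`

TASK K8: replace every sorry, keep the statements exactly; helper lemmas with names starting
`zchain_`.  Black boxes: AStep.lean (`An_le_succ_add`, `An_add_le`, `An_le_one`), Coef.lean.
All sums are `tsum` in `ℝ≥0∞` (`ENNReal.tsum_add`, `ENNReal.tsum_mul_left`, `ENNReal.tsum_le_tsum`,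
`tsum_eq_zero_add'`/`ENNReal.tsum_eq_zero_add` for splitting off `n = 0`).
`Zk_le_succ_add`: `An_le_succ_add` at `m = n + k`, times `c_n`, summed:
`Z^(k) ≤ Z^(k+1) + κ (∑_n c_n (n + k) A_(n+k))`; `∑_n c_n n A_(n+k) = ∑_m c_(m+1) (m+1) A_(m+1+k)
= μ ∑_m c_m A_(m+1+k) ≤ μ Z` (`cw_succ_mul`, `An_add_le`), and `k ∑_n c_n A_(n+k) ≤ k Z`.
`Zp_le_Zk_add`: induction on `s` from `Zk_zero` and `Zk_le_succ_add`
(`∑_(k<s) (μ + k) ≤ s μ + s^2`).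
-/

open MeasureTheory
open scoped ENNReal

namespace Vale.Agent.H32.P119

/-- ROW K8a. -/
theorem Zk_zero (f0 : Ph → ℝ≥0∞) (ε : ℝ) : Zk f0 ε 0 = Zp f0 ε := by
  rfl

/-- ROW K8b. -/
theorem Zk_le_succ_add (f0 : Ph → ℝ≥0∞) (hf : Measurable f0) (hint : ∫⁻ z, f0 z = 1)
    (C : ℝ≥0∞) (hρ : ∀ x : E3, ∫⁻ v : E3, f0 (x, v) ≤ C) (ε : ℝ) (hε : 0 < ε) (k : ℕ) :
    Zk f0 ε k ≤ Zk f0 ε (k + 1) + kap C ε * (mu ε + (k : ℝ≥0∞)) * Zp f0 ε := by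
  have hstep : ∀ n : ℕ, cw ε n * An f0 ε (n + k) ≤
      cw ε n * An f0 ε (n + (k + 1)) + kap C ε * (cw ε n * (n : ℝ≥0∞) * An f0 ε (n + k)
        + (k : ℝ≥0∞) * (cw ε n * An f0 ε (n + k))) := by
    intro n
    have h := An_le_succ_add f0 hf hint C hρ ε hε (n + k)
    calc cw ε n * An f0 ε (n + k)
        ≤ cw ε n * (An f0 ε (n + k + 1) +
            ((n + k : ℕ) : ℝ≥0∞) * kap C ε * An f0 ε (n + k)) := mul_le_mul_right h _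
      _ = cw ε n * An f0 ε (n + (k + 1)) + kap C ε * (cw ε n * (n : ℝ≥0∞) * An f0 ε (n + k)
            + (k : ℝ≥0∞) * (cw ε n * An f0 ε (n + k))) := by
          rw [Nat.add_assoc n k 1]
          push_cast
          ring
  have hB : ∑' n : ℕ, cw ε n * An f0 ε (n + k) ≤ Zp f0 ε :=
    ENNReal.tsum_le_tsum (fun n => mul_le_mul_right (An_add_le f0 hf hint ε n k) _)
  have hA : ∑' n : ℕ, cw ε n * (n : ℝ≥0∞) * An f0 ε (n + k) ≤ mu ε * Zp f0 ε := by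
    rw [tsum_eq_zero_add' ENNReal.summable]
    have h0 : cw ε 0 * ((0 : ℕ) : ℝ≥0∞) * An f0 ε (0 + k) = 0 := by
      rw [Nat.cast_zero, mul_zero, zero_mul]
    rw [h0, zero_add]
    have hterm : ∀ m : ℕ, cw ε (m + 1) * ((m + 1 : ℕ) : ℝ≥0∞) * An f0 ε (m + 1 + k) ≤
        mu ε * (cw ε m * An f0 ε m) := by
      intro m
      have e : cw ε (m + 1) * ((m + 1 : ℕ) : ℝ≥0∞) = mu ε * cw ε m := by
        rw [Nat.cast_add, Nat.cast_one]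
        exact cw_succ_mul ε m
      rw [e, mul_assoc]
      have h2 : An f0 ε (m + 1 + k) ≤ An f0 ε m := by
        rw [Nat.add_assoc]
        exact An_add_le f0 hf hint ε m (1 + k)
      exact mul_le_mul_right (mul_le_mul_right h2 _) _
    calc ∑' m : ℕ, cw ε (m + 1) * ((m + 1 : ℕ) : ℝ≥0∞) * An f0 ε (m + 1 + k)
        ≤ ∑' m : ℕ, mu ε * (cw ε m * An f0 ε m) := ENNReal.tsum_le_tsum hterm
      _ = mu ε * Zp f0 ε := by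
          rw [ENNReal.tsum_mul_left]
          rfl
  calc Zk f0 ε k = ∑' n : ℕ, cw ε n * An f0 ε (n + k) := rfl
    _ ≤ ∑' n : ℕ, (cw ε n * An f0 ε (n + (k + 1)) + kap C ε *
          (cw ε n * (n : ℝ≥0∞) * An f0 ε (n + k)
            + (k : ℝ≥0∞) * (cw ε n * An f0 ε (n + k)))) := ENNReal.tsum_le_tsum hstep
    _ = Zk f0 ε (k + 1) + kap C ε * (∑' n : ℕ, cw ε n * (n : ℝ≥0∞) * An f0 ε (n + k)
          + (k : ℝ≥0∞) * ∑' n : ℕ, cw ε n * An f0 ε (n + k)) := by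
        rw [ENNReal.tsum_add, ENNReal.tsum_mul_left, ENNReal.tsum_add, ENNReal.tsum_mul_left]
        rfl
    _ ≤ Zk f0 ε (k + 1) + kap C ε * (mu ε * Zp f0 ε + (k : ℝ≥0∞) * Zp f0 ε) := by
        gcongr
    _ = Zk f0 ε (k + 1) + kap C ε * (mu ε + (k : ℝ≥0∞)) * Zp f0 ε := by ring

/-- ROW K8c. -/
theorem Zp_le_Zk_add (f0 : Ph → ℝ≥0∞) (hf : Measurable f0) (hint : ∫⁻ z, f0 z = 1)
    (C : ℝ≥0∞) (hρ : ∀ x : E3, ∫⁻ v : E3, f0 (x, v) ≤ C) (ε : ℝ) (hε : 0 < ε) (s : ℕ) :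
    Zp f0 ε ≤ Zk f0 ε s + kap C ε * ((s : ℝ≥0∞) * mu ε + (s : ℝ≥0∞) ^ 2) * Zp f0 ε := by
  induction s with
  | zero =>
    rw [Zk_zero]
    exact le_self_add
  | succ s ih =>
    have h1 := Zk_le_succ_add f0 hf hint C hρ ε hε s
    have hsq : (s : ℝ≥0∞) ^ 2 + (s : ℝ≥0∞) ≤ ((s : ℝ≥0∞) + 1) ^ 2 := by
      have e : ((s : ℝ≥0∞) + 1) ^ 2 = (s : ℝ≥0∞) ^ 2 + (s : ℝ≥0∞) + ((s : ℝ≥0∞) + 1) := by ring
      rw [e]
      exact le_self_add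
    calc Zp f0 ε ≤ Zk f0 ε s + kap C ε * ((s : ℝ≥0∞) * mu ε + (s : ℝ≥0∞) ^ 2) * Zp f0 ε := ih
      _ ≤ (Zk f0 ε (s + 1) + kap C ε * (mu ε + (s : ℝ≥0∞)) * Zp f0 ε)
            + kap C ε * ((s : ℝ≥0∞) * mu ε + (s : ℝ≥0∞) ^ 2) * Zp f0 ε := by gcongr
      _ = Zk f0 ε (s + 1) + kap C ε * (((s : ℝ≥0∞) + 1) * mu ε
            + ((s : ℝ≥0∞) ^ 2 + (s : ℝ≥0∞))) * Zp f0 ε := by ring
      _ ≤ Zk f0 ε (s + 1) + kap C ε * (((s : ℝ≥0∞) + 1) * mu ε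
            + ((s : ℝ≥0∞) + 1) ^ 2) * Zp f0 ε := by gcongr
      _ = Zk f0 ε (s + 1) + kap C ε * (((s + 1 : ℕ) : ℝ≥0∞) * mu ε
            + ((s + 1 : ℕ) : ℝ≥0∞) ^ 2) * Zp f0 ε := by
          rw [Nat.cast_add, Nat.cast_one]

end Vale.Agent.H32.P119
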