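import Mathlib
import Vale.Agent.H32.P119.UpperSum
import Vale.Agent.H32.P119.NumMoment
import Vale.Agent.H32.P119.ZChain

/-!
# P119, `Φ = 0`: the two bounds at time zero (assembly; proved by the architect)

Upper bound from `gc_emb_le`; lower bound by the complement `1 - b`: the sums for `b` and `1 - b`
add up to the factorial moment `μ^s Z^(s)` of the particle number, `Z ≤ Z^(s) + κ (s μ + s^2) Z`,
and the finite term `μ^s L(1 - b) Z` cancels.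
-/

open MeasureTheory
open scoped ENNReal

namespace Vale.Agent.H32.P119

theorem zero_bounds (f0 : Ph → ℝ≥0∞) (hf : Measurable f0) (hint : ∫⁻ z, f0 z = 1)
    (C : ℝ≥0∞) (hρ : ∀ x : E3, ∫⁻ v : E3, f0 (x, v) ≤ C) (s : ℕ) (ε : ℝ) (hε : 0 < ε)
    (b : (Fin s → Ph) → ℝ≥0∞) (hb : Measurable b) (hb1 : ∀ z, b z ≤ 1) :
    ENNReal.ofReal ((ε ^ 2) ^ s) * (Zp f0 ε)⁻¹ *
        gc f0 ε (fun N z => ∑ ι : Fin s ↪ Fin N, b fun k => z (ι k)) ≤ Lf f0 b ∧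
    Lf f0 b ≤ ENNReal.ofReal ((ε ^ 2) ^ s) * (Zp f0 ε)⁻¹ *
        gc f0 ε (fun N z => ∑ ι : Fin s ↪ Fin N, b fun k => z (ι k))
      + C * volume (Metric.closedBall (0 : E3) 1) *
          ((s : ℝ≥0∞) * ENNReal.ofReal ε + (s : ℝ≥0∞) ^ 2 * ENNReal.ofReal (ε ^ 3)) := by
  obtain ⟨G, hG⟩ : ∃ G : ℝ≥0∞,
      G = gc f0 ε (fun N z => ∑ ι : Fin s ↪ Fin N, b fun k => z (ι k)) := ⟨_, rfl⟩
  obtain ⟨Z, hZ⟩ : ∃ Z : ℝ≥0∞, Z = Zp f0 ε := ⟨_, rfl⟩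
  obtain ⟨pre, hpre⟩ : ∃ pre : ℝ≥0∞, pre = ENNReal.ofReal ((ε ^ 2) ^ s) := ⟨_, rfl⟩
  obtain ⟨m, hm⟩ : ∃ m : ℝ≥0∞, m = mu ε ^ s := ⟨_, rfl⟩
  rw [← hG, ← hZ, ← hpre]
  have hZ0 : Z ≠ 0 := hZ ▸ Zp_ne_zero f0 ε
  have hZt : Z ≠ ⊤ := hZ ▸ Zp_ne_top f0 hf hint ε
  have hpm : pre * m = 1 := by
    rw [hpre, hm]
    exact ofReal_pow_mul_mu_pow ε hε s
  have hmt : m ≠ ⊤ := by
    rw [hm]
    exact ENNReal.pow_ne_top (mu_ne_top ε)
  have hup : G ≤ m * Lf f0 b * Z := by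
    rw [hG, hm, hZ]
    exact gc_emb_le f0 hf hint ε s b hb
  have hinv : Z⁻¹ * Z = 1 := ENNReal.inv_mul_cancel hZ0 hZt
  constructor
  · calc pre * Z⁻¹ * G ≤ pre * Z⁻¹ * (m * Lf f0 b * Z) := by gcongr
      _ = (pre * m) * (Z⁻¹ * Z) * Lf f0 b := by ring
      _ = Lf f0 b := by rw [hpm, hinv, one_mul, one_mul]
  · obtain ⟨bb, hbb⟩ : ∃ bb : (Fin s → Ph) → ℝ≥0∞, bb = fun w => 1 - b w := ⟨_, rfl⟩
    have hbbm : Measurable bb := by
      rw [hbb]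
      exact measurable_const.sub hb
    have hsum : ∀ w, b w + bb w = 1 := by
      intro w
      rw [hbb]
      exact add_tsub_cancel_of_le (hb1 w)
    obtain ⟨Gb, hGb⟩ : ∃ Gb : ℝ≥0∞,
        Gb = gc f0 ε (fun N z => ∑ ι : Fin s ↪ Fin N, bb fun k => z (ι k)) := ⟨_, rfl⟩
    have hadd : G + Gb = m * Zk f0 ε s := by
      rw [hG, hGb, hm, ← gc_emb_add f0 hf ε s b bb hb hbbm, ← gc_emb_one f0 hf ε s]
      congr 1
      funext N z
      exact Finset.sum_congr rfl fun ι _ => hsum _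
    have hL : Lf f0 b + Lf f0 bb = 1 := by
      rw [← Lf_add f0 hf b bb hb, ← Lf_one f0 hf hint s]
      congr 1
      funext w
      exact hsum w
    have hupb : Gb ≤ m * Lf f0 bb * Z := by
      rw [hGb, hm, hZ]
      exact gc_emb_le f0 hf hint ε s bb hbbm
    obtain ⟨κ', hκ'⟩ : ∃ κ' : ℝ≥0∞,
        κ' = kap C ε * ((s : ℝ≥0∞) * mu ε + (s : ℝ≥0∞) ^ 2) := ⟨_, rfl⟩
    have hchain : Z ≤ Zk f0 ε s + κ' * Z := by
      rw [hZ, hκ']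
      exact Zp_le_Zk_add f0 hf hint C hρ ε hε s
    have h1 : m * Z * Lf f0 b + m * Lf f0 bb * Z ≤ G + m * κ' * Z + m * Lf f0 bb * Z := by
      calc m * Z * Lf f0 b + m * Lf f0 bb * Z = m * Z * (Lf f0 b + Lf f0 bb) := by ring
        _ = m * Z := by rw [hL, mul_one]
        _ ≤ m * (Zk f0 ε s + κ' * Z) := by gcongr
        _ = (G + Gb) + m * κ' * Z := by rw [hadd]; ring
        _ ≤ (G + m * Lf f0 bb * Z) + m * κ' * Z := by gcongr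
        _ = G + m * κ' * Z + m * Lf f0 bb * Z := by ring
    have hLb : Lf f0 bb ≤ 1 := by
      rw [← hL]
      exact le_add_self
    have hfin : m * Lf f0 bb * Z ≠ ⊤ :=
      ENNReal.mul_ne_top (ENNReal.mul_ne_top hmt (ne_top_of_le_ne_top ENNReal.one_ne_top hLb)) hZt
    have h2 : m * Z * Lf f0 b ≤ G + m * κ' * Z := (ENNReal.add_le_add_iff_right hfin).mp h1
    have h3 : Lf f0 b = pre * Z⁻¹ * (m * Z * Lf f0 b) := by
      calc Lf f0 b = (pre * m) * (Z⁻¹ * Z) * Lf f0 b := by rw [hpm, hinv, one_mul, one_mul]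
        _ = pre * Z⁻¹ * (m * Z * Lf f0 b) := by ring
    have h4 : pre * Z⁻¹ * (m * κ' * Z) = κ' := by
      calc pre * Z⁻¹ * (m * κ' * Z) = (pre * m) * (Z⁻¹ * Z) * κ' := by ring
        _ = κ' := by rw [hpm, hinv, one_mul, one_mul]
    have h5 : κ' = C * volume (Metric.closedBall (0 : E3) 1) *
          ((s : ℝ≥0∞) * ENNReal.ofReal ε + (s : ℝ≥0∞) ^ 2 * ENNReal.ofReal (ε ^ 3)) := by
      rw [hκ', kap, ← mu_mul_ofReal_cube ε hε]
      ring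
    calc Lf f0 b = pre * Z⁻¹ * (m * Z * Lf f0 b) := h3
      _ ≤ pre * Z⁻¹ * (G + m * κ' * Z) := by gcongr
      _ = pre * Z⁻¹ * G + κ' := by rw [mul_add, h4]
      _ = _ := by rw [h5]

end Vale.Agent.H32.P119
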