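import Mathlib
import Vale.Agent.H32.P119.Zero
import Vale.Agent.H32.P119.Flow

/-!
# P119, `Φ = 0`: the final statement (proved from the rows)

For the free dynamics, the rescaled factorial marginals of the exclusion grand canonical law stay
below the product `f(t)^{⊗s}`, `f(t) = f0 ∘ S_(-t)`, and differ from it in `L^1` by at most
`C |B_1| (s ε + s^2 ε^3)`, for every time `t`.
-/

open MeasureTheory
open scoped ENNReal

namespace Vale.Agent.H32.P119

theorem final_statement (f0 : Ph → ℝ≥0∞) (hf : Measurable f0) (hint : ∫⁻ z, f0 z = 1)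
    (C : ℝ≥0∞) (hρ : ∀ x : E3, ∫⁻ v : E3, f0 (x, v) ≤ C)
    (s : ℕ) (ε : ℝ) (hε : 0 < ε) (t : ℝ)
    (a : (Fin s → Ph) → ℝ≥0∞) (ha : Measurable a) (ha1 : ∀ z, a z ≤ 1) :
    marginal f0 ε s t a ≤ ∫⁻ z : Fin s → Ph, a z * ∏ k, f0 (flow (-t) (z k)) ∧
    ∫⁻ z : Fin s → Ph, a z * ∏ k, f0 (flow (-t) (z k)) ≤ marginal f0 ε s t a
      + C * volume (Metric.closedBall (0 : E3) 1) *
          ((s : ℝ≥0∞) * ENNReal.ofReal ε + (s : ℝ≥0∞) ^ 2 * ENNReal.ofReal (ε ^ 3)) := by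
  obtain ⟨b, hb⟩ : ∃ b : (Fin s → Ph) → ℝ≥0∞, b = fun w => a fun k => flow t (w k) := ⟨_, rfl⟩
  have hbm : Measurable b := by
    rw [hb]
    exact ha.comp
      (measurable_pi_lambda _ fun k => (measurable_flow t).comp (measurable_pi_apply k))
  have hb1 : ∀ z : Fin s → Ph, b z ≤ 1 := by
    intro z
    rw [hb]
    exact ha1 _
  have hZ := zero_bounds f0 hf hint C hρ s ε hε b hbm hb1
  have hmarg : marginal f0 ε s t a = ENNReal.ofReal ((ε ^ 2) ^ s) * (Zp f0 ε)⁻¹ *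
        gc f0 ε (fun N z => ∑ ι : Fin s ↪ Fin N, b fun k => z (ι k)) := by
    rw [hb]
    unfold marginal
    rw [gc_one]
  have hL : ∫⁻ z : Fin s → Ph, a z * ∏ k, f0 (flow (-t) (z k)) = Lf f0 b := by
    rw [hb]
    exact lintegral_flow f0 hf s t a ha
  rw [hmarg, hL]
  exact hZ

end Vale.Agent.H32.P119
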