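import Mathlib
import Vale.Agent.H32.P119.Final

/-!
# P119, `Φ = 0`: the marginal has a density, and the `L^1` form of the final statement

The functional `a ↦ marginal f0 ε s t a` is integration against a measure (a weighted sum of
push-forwards of measures with density); `final_statement` bounds it by the measure with density
`∏ f0 ∘ S_(-t)`, so it has a density `F` by the Radon-Nikodym theorem, `F ≤ ∏ f0 ∘ S_(-t)` almost
everywhere, and the `L^1` distance is the defect of the total masses.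
-/

open MeasureTheory
open scoped ENNReal

namespace Vale.Agent.H32.P119

/-- the observed configuration: the states at time `t` of the particles with the labels `ι` -/
def obs (s N : ℕ) (t : ℝ) (ι : Fin s ↪ Fin N) (z : Fin N → Ph) : Fin s → Ph :=
  fun k => flow t (z (ι k))

theorem dens_measurable_obs (s N : ℕ) (t : ℝ) (ι : Fin s ↪ Fin N) : Measurable (obs s N t ι) :=
  measurable_pi_lambda _ fun k => (measurable_flow t).comp (measurable_pi_apply (ι k))

/-- the weight of the `N`-particle sector -/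
noncomputable def wgt (f0 : Ph → ℝ≥0∞) (ε : ℝ) (N : ℕ) (z : Fin N → Ph) : ℝ≥0∞ :=
  exclI ε z * ∏ i, f0 (z i)

theorem dens_measurable_wgt (f0 : Ph → ℝ≥0∞) (hf : Measurable f0) (ε : ℝ) (N : ℕ) :
    Measurable (wgt f0 ε N) :=
  (measurable_exclI ε N).mul (measurable_prod_f0 f0 hf N)

/-- the rescaled factorial marginal as a measure -/
noncomputable def margMeasure (f0 : Ph → ℝ≥0∞) (ε : ℝ) (s : ℕ) (t : ℝ) : Measure (Fin s → Ph) :=
  (ENNReal.ofReal ((ε ^ 2) ^ s) * (Zp f0 ε)⁻¹) •
    Measure.sum (fun N : ℕ => cw ε N •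
      ∑ ι : Fin s ↪ Fin N,
        Measure.map (obs s N t ι) ((volume : Measure (Fin N → Ph)).withDensity (wgt f0 ε N)))

theorem dens_lintegral_one (f0 : Ph → ℝ≥0∞) (hf : Measurable f0) (ε : ℝ) (s N : ℕ) (t : ℝ)
    (ι : Fin s ↪ Fin N) (a : (Fin s → Ph) → ℝ≥0∞) (ha : Measurable a) :
    ∫⁻ w, a w ∂(Measure.map (obs s N t ι)
        ((volume : Measure (Fin N → Ph)).withDensity (wgt f0 ε N)))
      = Wn f0 ε N (fun z => a fun k => flow t (z (ι k))) := by
  have hg : Measurable fun z : Fin N → Ph => a (obs s N t ι z) :=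
    ha.comp (dens_measurable_obs s N t ι)
  rw [lintegral_map ha (dens_measurable_obs s N t ι),
    lintegral_withDensity_eq_lintegral_mul _ (dens_measurable_wgt f0 hf ε N) hg]
  unfold Wn
  refine lintegral_congr fun z => ?_
  simp only [Pi.mul_apply, wgt, mul_assoc]
  rfl

theorem dens_lintegral_margMeasure (f0 : Ph → ℝ≥0∞) (hf : Measurable f0) (ε : ℝ) (s : ℕ) (t : ℝ)
    (a : (Fin s → Ph) → ℝ≥0∞) (ha : Measurable a) :
    ∫⁻ w, a w ∂(margMeasure f0 ε s t) = marginal f0 ε s t a := by
  obtain ⟨b, hb⟩ : ∃ b : (Fin s → Ph) → ℝ≥0∞, b = fun w => a fun k => flow t (w k) := ⟨_, rfl⟩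
  have hbm : Measurable b := by
    rw [hb]
    exact ha.comp
      (measurable_pi_lambda _ fun k => (measurable_flow t).comp (measurable_pi_apply k))
  unfold margMeasure marginal
  rw [lintegral_smul_measure, lintegral_sum_measure, gc_one, gc_eq, smul_eq_mul]
  congr 1
  refine tsum_congr fun N => ?_
  rw [lintegral_smul_measure, lintegral_finsetSum_measure, smul_eq_mul]
  congr 1
  have h1 := upsum_Wn_sum f0 hf ε s N b hbm
  rw [hb] at h1
  rw [h1]
  exact Finset.sum_congr rfl fun ι _ => dens_lintegral_one f0 hf ε s N t ι a ha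

theorem density_statement (f0 : Ph → ℝ≥0∞) (hf : Measurable f0) (hint : ∫⁻ z, f0 z = 1)
    (C : ℝ≥0∞) (hρ : ∀ x : E3, ∫⁻ v : E3, f0 (x, v) ≤ C)
    (s : ℕ) (ε : ℝ) (hε : 0 < ε) (t : ℝ) :
    ∃ F : (Fin s → Ph) → ℝ≥0∞, Measurable F ∧
      (∀ a : (Fin s → Ph) → ℝ≥0∞, Measurable a →
        marginal f0 ε s t a = ∫⁻ z : Fin s → Ph, a z * F z) ∧
      (∀ᵐ z : Fin s → Ph, F z ≤ ∏ k, f0 (flow (-t) (z k))) ∧
      ∫⁻ z : Fin s → Ph, ((∏ k, f0 (flow (-t) (z k)) - F z) + (F z - ∏ k, f0 (flow (-t) (z k))))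
        ≤ C * volume (Metric.closedBall (0 : E3) 1) *
          ((s : ℝ≥0∞) * ENNReal.ofReal ε + (s : ℝ≥0∞) ^ 2 * ENNReal.ofReal (ε ^ 3)) := by
  obtain ⟨P, hP⟩ : ∃ P : (Fin s → Ph) → ℝ≥0∞, P = fun z => ∏ k, f0 (flow (-t) (z k)) := ⟨_, rfl⟩
  have hPm : Measurable P := by
    rw [hP]
    exact Finset.measurable_prod _ fun k _ =>
      hf.comp ((measurable_flow (-t)).comp (measurable_pi_apply k))
  have hsf : SigmaFinite (volume : Measure (Fin s → Ph)) := by
    rw [volume_pi]
    exact Measure.pi.sigmaFinite _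
  obtain ⟨ν, hν⟩ : ∃ ν : Measure (Fin s → Ph), ν = margMeasure f0 ε s t := ⟨_, rfl⟩
  have hνa : ∀ a : (Fin s → Ph) → ℝ≥0∞, Measurable a → ∫⁻ w, a w ∂ν = marginal f0 ε s t a := by
    intro a ha
    rw [hν]
    exact dens_lintegral_margMeasure f0 hf ε s t a ha
  have hfin : ∀ a : (Fin s → Ph) → ℝ≥0∞, Measurable a → (∀ z, a z ≤ 1) →
      marginal f0 ε s t a ≤ ∫⁻ z : Fin s → Ph, a z * P z ∧
      ∫⁻ z : Fin s → Ph, a z * P z ≤ marginal f0 ε s t a
        + C * volume (Metric.closedBall (0 : E3) 1) *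
          ((s : ℝ≥0∞) * ENNReal.ofReal ε + (s : ℝ≥0∞) ^ 2 * ENNReal.ofReal (ε ^ 3)) := by
    intro a ha ha1
    rw [hP]
    exact final_statement f0 hf hint C hρ s ε hε t a ha ha1
  -- the measure is dominated by `P dz`
  have hle : ν ≤ (volume : Measure (Fin s → Ph)).withDensity P := by
    refine Measure.le_iff.mpr fun A hA => ?_
    have h1 : ν A = marginal f0 ε s t (A.indicator 1) := by
      rw [← hνa _ (measurable_one.indicator hA), lintegral_indicator_one hA]
    have h2 : ∀ z : Fin s → Ph, A.indicator (1 : (Fin s → Ph) → ℝ≥0∞) z ≤ 1 := by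
      intro z
      by_cases hz : z ∈ A
      · rw [Set.indicator_of_mem hz]
        exact le_rfl
      · rw [Set.indicator_of_notMem hz]
        exact bot_le
    have h3 := (hfin (A.indicator 1) (measurable_one.indicator hA) h2).1
    rw [h1, withDensity_apply _ hA, ← lintegral_indicator hA]
    refine h3.trans (le_of_eq (lintegral_congr fun z => ?_))
    by_cases hz : z ∈ A
    · rw [Set.indicator_of_mem hz, Set.indicator_of_mem hz, Pi.one_apply, one_mul]
    · rw [Set.indicator_of_notMem hz, Set.indicator_of_notMem hz, zero_mul]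
  -- total masses
  have hPint : ∫⁻ z, P z = 1 := by
    have h := lintegral_flow f0 hf s t (fun _ => 1) measurable_const
    simp only [one_mul] at h
    rw [hP, h]
    exact Lf_one f0 hf hint s
  have hνfin : IsFiniteMeasure ν := by
    refine ⟨lt_of_le_of_lt (hle Set.univ) ?_⟩
    rw [withDensity_apply _ MeasurableSet.univ, Measure.restrict_univ, hPint]
    exact ENNReal.one_lt_top
  have hac : ν ≪ (volume : Measure (Fin s → Ph)) :=
    (Measure.absolutelyContinuous_of_le hle).trans (withDensity_absolutelyContinuous _ _)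
  obtain ⟨F, hF⟩ : ∃ F : (Fin s → Ph) → ℝ≥0∞,
      F = ν.rnDeriv (volume : Measure (Fin s → Ph)) := ⟨_, rfl⟩
  have hFm : Measurable F := by
    rw [hF]
    exact Measure.measurable_rnDeriv _ _
  have hνF : (volume : Measure (Fin s → Ph)).withDensity F = ν := by
    rw [hF]
    exact Measure.withDensity_rnDeriv_eq _ _ hac
  have hmarg : ∀ a : (Fin s → Ph) → ℝ≥0∞, Measurable a →
      marginal f0 ε s t a = ∫⁻ z : Fin s → Ph, a z * F z := by
    intro a ha
    rw [← hνa a ha, ← hνF, lintegral_withDensity_eq_lintegral_mul _ hFm ha]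
    exact lintegral_congr fun z => by rw [Pi.mul_apply, mul_comm]
  have hFP : F ≤ᵐ[(volume : Measure (Fin s → Ph))] P := by
    refine ae_le_of_forall_setLIntegral_le_of_sigmaFinite hFm fun A hA _ => ?_
    rw [← withDensity_apply _ hA, ← withDensity_apply _ hA, hνF]
    exact hle A
  have hlast : ∫⁻ z : Fin s → Ph, ((P z - F z) + (F z - P z))
      ≤ C * volume (Metric.closedBall (0 : E3) 1) *
          ((s : ℝ≥0∞) * ENNReal.ofReal ε + (s : ℝ≥0∞) ^ 2 * ENNReal.ofReal (ε ^ 3)) := by
    have hFint : ∫⁻ z, F z = marginal f0 ε s t (fun _ => 1) := by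
      rw [hmarg _ measurable_const]
      exact lintegral_congr fun z => (one_mul _).symm
    have hFne : ∫⁻ z, F z ≠ ⊤ := by
      have h : ∫⁻ z, F z = ν Set.univ := by
        rw [← hνF, withDensity_apply _ MeasurableSet.univ, Measure.restrict_univ]
      rw [h]
      exact measure_ne_top ν _
    have h4 : ∫⁻ z : Fin s → Ph, ((P z - F z) + (F z - P z)) = ∫⁻ z, (P z - F z) := by
      refine lintegral_congr_ae (hFP.mono fun z hz => ?_)
      simp only
      rw [tsub_eq_zero_of_le hz, add_zero]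
    rw [h4, lintegral_sub hFm hFne hFP, tsub_le_iff_left, hFint]
    have h5 := (hfin (fun _ => 1) measurable_const (fun _ => le_rfl)).2
    simp only [one_mul] at h5
    exact h5
  subst hP
  exact ⟨F, hFm, hmarg, hFP, hlast⟩

end Vale.Agent.H32.P119
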